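import Vale.Agent.Lib.P064T.EmbT
import Vale.Agent.Lib.P064U.WAll
import Vale.Agent.Lib.P064U.WNum
import Vale.Agent.Lib.P064.PeelFinal

/-!
The uniform bound: `T` above the window, `W` in the window. For all `H`:
`p̃_E ≤ C max (p_E, 1 / n) (log n)^(1/2 + ε)` and `p_c ≤ C max (p_E, 1 / n) (log n)^(3/2 + ε)`.
-/

open Finset

namespace Vale.Agent.Lib.P064T

open Vale.Agent.Lib.P064 Vale.Agent.Lib.P064E Vale.Agent.Lib.P064U
open scoped Classical

/-- The embedding bound in the whole range `1 ≤ n q`: per-edge loss `(1 + l)^(1/2 + ε)`. -/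
theorem emb_uniform (ε : ℝ) (hε : 0 < ε) :
    ∃ C : ℝ, 0 < C ∧ ∀ (n : ℕ) (q l lam : ℝ) (V : Type) [Fintype V] (H : SimpleGraph V),
      Std n q l lam → 1 ≤ (n : ℝ) * q → GoodDensity n q H → Fintype.card V ≤ n →
      ∃ Θ : ℝ, 0 < Θ ∧ EmbBound n H Θ ∧ Θ ≤ C * q * (1 + l) ^ (1 / 2 + ε) := by
  obtain ⟨CT, hCT, hT⟩ := embBound_T ε hε
  obtain ⟨c, hc0, hcε, hc1⟩ : ∃ c : ℝ, 0 < c ∧ c ≤ ε ∧ c < 1 / 2 :=
    ⟨min ε (1 / 4), lt_min hε (by norm_num), min_le_left _ _,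
      lt_of_le_of_lt (min_le_right _ _) (by norm_num)⟩
  obtain ⟨l₀, CW, hl₀, hCW, hW⟩ := exists_wpar c hc0 hc1
  refine ⟨Real.exp 40 * CW + CT * (2 + l₀), by positivity, ?_⟩
  intro n q l lam V _ H hs hD hG hV
  have hl1 := hs.l1
  have hl0 : 0 < l := by linarith
  have hq0 := hs.q0
  have hn1 : (1 : ℝ) ≤ n := by exact_mod_cast hs.n1
  have hn0 : (0 : ℝ) < n := by linarith
  have hD0 : (0 : ℝ) < (n : ℝ) * q := by positivity
  have hbase : (1 : ℝ) ≤ 1 + l := by linarith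
  have hP1 : (1 : ℝ) ≤ (1 + l) ^ ((1 : ℝ) / 2 + ε) :=
    Real.one_le_rpow hbase (by positivity)
  have hP0 : 0 < (1 + l) ^ ((1 : ℝ) / 2 + ε) := by linarith
  by_cases h : l₀ ≤ l ∧ (n : ℝ) * q ≤ l ^ ((1 : ℝ) / 2 - c)
  · obtain ⟨τ, Δ, p, d₀, hpar⟩ := hW n q l lam h.1 hs hD h.2
    refine ⟨Real.exp 40 * (CW * l ^ ((1 : ℝ) / 2)) * q, by positivity,
      embBound_window hG hV hpar, ?_⟩
    have h1 : l ^ ((1 : ℝ) / 2) ≤ (1 + l) ^ ((1 : ℝ) / 2 + ε) := by
      calc l ^ ((1 : ℝ) / 2) ≤ (1 + l) ^ ((1 : ℝ) / 2) :=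
            Real.rpow_le_rpow hl0.le (by linarith) (by norm_num)
        _ ≤ (1 + l) ^ ((1 : ℝ) / 2 + ε) :=
            Real.rpow_le_rpow_of_exponent_le hbase (by linarith)
    have h2 : Real.exp 40 * (CW * l ^ ((1 : ℝ) / 2)) * q ≤
        Real.exp 40 * CW * q * (1 + l) ^ ((1 : ℝ) / 2 + ε) := by
      have : 0 ≤ Real.exp 40 * CW * q := by positivity
      calc Real.exp 40 * (CW * l ^ ((1 : ℝ) / 2)) * q
          = (Real.exp 40 * CW * q) * l ^ ((1 : ℝ) / 2) := by ring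
        _ ≤ (Real.exp 40 * CW * q) * (1 + l) ^ ((1 : ℝ) / 2 + ε) :=
            mul_le_mul_of_nonneg_left h1 this
        _ = _ := by ring
    have h3 : 0 ≤ CT * (2 + l₀) * q * (1 + l) ^ ((1 : ℝ) / 2 + ε) := by positivity
    calc Real.exp 40 * (CW * l ^ ((1 : ℝ) / 2)) * q
        ≤ Real.exp 40 * CW * q * (1 + l) ^ ((1 : ℝ) / 2 + ε) := h2
      _ ≤ (Real.exp 40 * CW + CT * (2 + l₀)) * q * (1 + l) ^ ((1 : ℝ) / 2 + ε) := by
          nlinarith
  · -- above the window, or small `l`: the pendant term is small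
    have hpend : l / (n : ℝ) ≤ q * ((1 + l₀) * (1 + l) ^ ((1 : ℝ) / 2 + ε)) := by
      have hqn : q * (l / ((n : ℝ) * q)) = l / (n : ℝ) := by
        field_simp
      rw [← hqn]
      apply mul_le_mul_of_nonneg_left _ hq0.le
      by_cases hl : l₀ ≤ l
      · have hup : l ^ ((1 : ℝ) / 2 - c) < (n : ℝ) * q := by
          by_contra hcon
          push Not at hcon
          exact h ⟨hl, hcon⟩
        have hpow0 : 0 < l ^ ((1 : ℝ) / 2 - c) := Real.rpow_pos_of_pos hl0 _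
        have h1 : l / ((n : ℝ) * q) ≤ l / l ^ ((1 : ℝ) / 2 - c) :=
          div_le_div_of_nonneg_left hl0.le hpow0 hup.le
        have h2 : l / l ^ ((1 : ℝ) / 2 - c) = l ^ ((1 : ℝ) / 2 + c) := by
          rw [div_eq_iff hpow0.ne', ← Real.rpow_add hl0]
          rw [show (1 : ℝ) / 2 + c + (1 / 2 - c) = 1 by ring, Real.rpow_one]
        have h3 : l ^ ((1 : ℝ) / 2 + c) ≤ (1 + l) ^ ((1 : ℝ) / 2 + ε) := by
          calc l ^ ((1 : ℝ) / 2 + c) ≤ (1 + l) ^ ((1 : ℝ) / 2 + c) :=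
                Real.rpow_le_rpow hl0.le (by linarith) (by linarith)
            _ ≤ (1 + l) ^ ((1 : ℝ) / 2 + ε) :=
                Real.rpow_le_rpow_of_exponent_le hbase (by linarith)
        have h4 : (1 : ℝ) ≤ 1 + l₀ := by linarith
        calc l / ((n : ℝ) * q) ≤ l ^ ((1 : ℝ) / 2 + c) := by rw [← h2]; exact h1
          _ ≤ (1 + l) ^ ((1 : ℝ) / 2 + ε) := h3
          _ ≤ (1 + l₀) * (1 + l) ^ ((1 : ℝ) / 2 + ε) := by nlinarith
      · push Not at hl
        have h1 : l / ((n : ℝ) * q) ≤ l := div_le_self hl0.le hD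
        have h2 : l ≤ 1 + l₀ := by linarith
        calc l / ((n : ℝ) * q) ≤ 1 + l₀ := h1.trans h2
          _ ≤ (1 + l₀) * (1 + l) ^ ((1 : ℝ) / 2 + ε) := by
              have : (0 : ℝ) ≤ 1 + l₀ := by linarith
              nlinarith
    have hdiv0 : 0 < l / (n : ℝ) := by positivity
    refine ⟨CT * (q * (1 + l) ^ ((1 : ℝ) / 2 + ε) + l / (n : ℝ)), by positivity,
      hT n q l lam V H hs hG hV, ?_⟩
    have h1 : CT * (q * (1 + l) ^ ((1 : ℝ) / 2 + ε) + l / (n : ℝ)) ≤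
        CT * (2 + l₀) * q * (1 + l) ^ ((1 : ℝ) / 2 + ε) := by
      calc CT * (q * (1 + l) ^ ((1 : ℝ) / 2 + ε) + l / (n : ℝ))
          ≤ CT * (q * (1 + l) ^ ((1 : ℝ) / 2 + ε) +
              q * ((1 + l₀) * (1 + l) ^ ((1 : ℝ) / 2 + ε))) :=
            mul_le_mul_of_nonneg_left (by linarith) hCT.le
        _ = _ := by ring
    have h3 : 0 ≤ Real.exp 40 * CW * q * (1 + l) ^ ((1 : ℝ) / 2 + ε) := by positivity
    calc CT * (q * (1 + l) ^ ((1 : ℝ) / 2 + ε) + l / (n : ℝ))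
        ≤ CT * (2 + l₀) * q * (1 + l) ^ ((1 : ℝ) / 2 + ε) := h1
      _ ≤ (Real.exp 40 * CW + CT * (2 + l₀)) * q * (1 + l) ^ ((1 : ℝ) / 2 + ε) := by
          nlinarith

/-- `GoodDensity` is monotone in `q`. -/
lemma good_mono {V : Type} {H : SimpleGraph V} {n : ℕ} {q q' : ℝ} (h0 : 0 ≤ q) (hq : q ≤ q')
    (hG : GoodDensity n q H) : GoodDensity n q' H := by
  intro β _ U hU hne
  refine (hG β U hU hne).trans ?_
  exact mul_le_mul_of_nonneg_left (pow_le_pow_left₀ h0 hq _) (Nat.cast_nonneg _)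

/-- The uniform thresholds. -/
theorem thresholds_uniform (ε : ℝ) (hε : 0 < ε) :
    ∃ C : ℝ, 0 < C ∧ ∀ n : ℕ, 3 ≤ n → ∀ (V : Type) [Fintype V] (H : SimpleGraph V),
      Fintype.card V ≤ n → H ≠ ⊥ →
      pTilde n H ≤ C * max (pE n H) (1 / (n : ℝ)) * (Real.log n) ^ (1 / 2 + ε) ∧
      pc n H ≤ C * max (pE n H) (1 / (n : ℝ)) * (Real.log n) ^ (3 / 2 + ε) := by
  obtain ⟨C₁, hC₁, hU⟩ := emb_uniform ε hε
  have h2pow : (1 : ℝ) ≤ (2 : ℝ) ^ ((1 : ℝ) / 2 + ε) :=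
    Real.one_le_rpow (by norm_num) (by positivity)
  refine ⟨4 * Real.exp 1 + 512 * (4 * C₁ * (2 : ℝ) ^ ((1 : ℝ) / 2 + ε)), by positivity, ?_⟩
  intro n hn V _ H hV hH
  obtain ⟨ι⟩ : Nonempty (V ↪ Fin n) :=
    Function.Embedding.nonempty_of_card_le (by simpa using hV)
  have hn2 : 2 ≤ n := by omega
  have hnR : (3 : ℝ) ≤ n := by exact_mod_cast hn
  have hn0 : (0 : ℝ) < n := by linarith
  set x := Real.log n with hx
  have hx1 : 1 ≤ x := by
    rw [hx, Real.le_log_iff_exp_le hn0]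
    have := Real.exp_one_lt_d9
    linarith
  have hx0 : 0 < x := by linarith
  have hE0 := pE_pos hn2 hV hH
  have hlt : pE n H < 2 * pE n H := by linarith
  obtain ⟨p, ⟨h0, h1, hp⟩, hp2⟩ := exists_lt_of_csInf_lt (pE_set_nonempty (H := H) ι) hlt
  have hpE : pE n H ≤ p := csInf_le ⟨0, fun _ hy => hy.1⟩ ⟨h0, h1, hp⟩
  have hp0 : 0 < p := by linarith
  have hG₀ : GoodDensity n (2 * p) H := good_of_subgraphs h0 h1 hp
  set P := max (pE n H) (1 / (n : ℝ)) with hP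
  have hP0 : 0 < P := lt_max_of_lt_left hE0
  have hPE : pE n H ≤ P := le_max_left _ _
  have hPn : 1 / (n : ℝ) ≤ P := le_max_right _ _
  set q := max (2 * p) (1 / (n : ℝ)) with hq
  have hq0 : 0 < q := lt_max_of_lt_right (by positivity)
  have hq4 : q ≤ 4 * P := by
    apply max_le
    · linarith
    · linarith
  have hqn : 1 / (n : ℝ) ≤ q := le_max_right _ _
  have hG : GoodDensity n q H := good_mono (by positivity) (le_max_left _ _) hG₀
  have hpow1 : (1 : ℝ) ≤ x ^ ((1 : ℝ) / 2 + ε) := Real.one_le_rpow hx1 (by positivity)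
  have hpow3 : x ^ ((3 : ℝ) / 2 + ε) = x * x ^ ((1 : ℝ) / 2 + ε) := by
    rw [show (3 : ℝ) / 2 + ε = 1 + (1 / 2 + ε) by ring, Real.rpow_add hx0, Real.rpow_one]
  set Y := x ^ ((1 : ℝ) / 2 + ε) with hY
  have hY0 : 0 < Y := by linarith
  have hconst : 0 ≤ 512 * (4 * C₁ * (2 : ℝ) ^ ((1 : ℝ) / 2 + ε)) := by positivity
  set A := 4 * C₁ * (2 : ℝ) ^ ((1 : ℝ) / 2 + ε) with hA
  have hA0 : 0 ≤ A := by positivity
  have hPY : 0 ≤ P * Y := by positivity
  rw [show (3 : ℝ) / 2 + ε = (3 : ℝ) / 2 + ε from rfl, hpow3]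
  by_cases hqe : Real.exp (-1) < q
  · -- large `q`: trivial
    have h1P : 1 ≤ 4 * Real.exp 1 * P := by
      have h2 : Real.exp (-1) * Real.exp 1 = 1 := by
        rw [← Real.exp_add]
        simp
      have h3 : 0 < Real.exp 1 := Real.exp_pos _
      calc (1 : ℝ) = Real.exp (-1) * Real.exp 1 := h2.symm
        _ ≤ q * Real.exp 1 := mul_le_mul_of_nonneg_right hqe.le h3.le
        _ ≤ (4 * P) * Real.exp 1 := mul_le_mul_of_nonneg_right hq4 h3.le
        _ = _ := by ring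
    have hb : 4 * Real.exp 1 * P ≤ (4 * Real.exp 1 + 512 * A) * P := by
      nlinarith
    have hYx : Y ≤ x * Y := by nlinarith
    have hCP : 0 ≤ (4 * Real.exp 1 + 512 * A) * P := by positivity
    constructor
    · calc pTilde n H ≤ 1 := pTilde_le_one hV
        _ ≤ (4 * Real.exp 1 + 512 * A) * P := h1P.trans hb
        _ ≤ (4 * Real.exp 1 + 512 * A) * P * Y := by nlinarith
    · calc pc n H ≤ 1 := pc_le_one hV
        _ ≤ (4 * Real.exp 1 + 512 * A) * P := h1P.trans hb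
        _ ≤ (4 * Real.exp 1 + 512 * A) * P * Y := by nlinarith
        _ ≤ (4 * Real.exp 1 + 512 * A) * P * (x * Y) :=
            mul_le_mul_of_nonneg_left hYx hCP
  · push Not at hqe
    have hlamq : 1 ≤ - Real.log q := by
      have := Real.log_le_log hq0 hqe
      rw [Real.log_exp] at this
      linarith
    have hlamx : - Real.log q ≤ x := by
      have h2 : Real.log (1 / (n : ℝ)) ≤ Real.log q := Real.log_le_log (by positivity) hqn
      rw [one_div, Real.log_inv] at h2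
      linarith
    have hs : Std n q x (- Real.log q) :=
      { n1 := by omega
        l_eq := rfl
        lam_eq := rfl
        q0 := hq0
        l1 := hx1
        lam1 := hlamq
        lam_le := hlamx }
    have hD : 1 ≤ (n : ℝ) * q := by
      have := mul_le_mul_of_nonneg_left hqn hn0.le
      rwa [mul_one_div_cancel hn0.ne'] at this
    obtain ⟨Θ, hΘ0, hΘ, hΘle⟩ := hU n q x (- Real.log q) V H hs hD hG hV
    have h1x : (1 + x) ^ ((1 : ℝ) / 2 + ε) ≤ (2 : ℝ) ^ ((1 : ℝ) / 2 + ε) * Y := by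
      rw [hY, ← Real.mul_rpow (by norm_num) hx0.le]
      exact Real.rpow_le_rpow (by linarith) (by linarith) (by positivity)
    have hΘY : Θ ≤ A * (P * Y) := by
      have hpos : 0 ≤ (1 + x) ^ ((1 : ℝ) / 2 + ε) := by positivity
      calc Θ ≤ C₁ * q * (1 + x) ^ ((1 : ℝ) / 2 + ε) := hΘle
        _ ≤ C₁ * (4 * P) * ((2 : ℝ) ^ ((1 : ℝ) / 2 + ε) * Y) := by
            apply mul_le_mul _ h1x hpos (by positivity)
            exact mul_le_mul_of_nonneg_left hq4 hC₁.le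
        _ = _ := by rw [hA]; ring
    have he : 0 ≤ 4 * Real.exp 1 * (P * Y) := by positivity
    constructor
    · calc pTilde n H ≤ Θ := pTilde_le_of_embBound hV hΘ0 hΘ
        _ ≤ A * (P * Y) := hΘY
        _ ≤ (4 * Real.exp 1 + 512 * A) * P * Y := by nlinarith
    · calc pc n H ≤ 512 * x * Θ := pc_le_of_embBound hn2 hV hH hΘ0 hΘ
        _ ≤ 512 * x * (A * (P * Y)) := mul_le_mul_of_nonneg_left hΘY (by positivity)
        _ ≤ (4 * Real.exp 1 + 512 * A) * P * (x * Y) := by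
            have : 0 ≤ 4 * Real.exp 1 * P * (x * Y) := by positivity
            nlinarith

end Vale.Agent.Lib.P064T
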