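import Vale.Agent.Lib.P064T.LevelTop

/-!
Part H1: the numeric parameters: `sqrt (baseT l) * (baseT l)^(1 / b₁) ≤ C₀ (1 + l)^(1/2 + ε)`.
-/

namespace Vale.Agent.Lib.P064T

/-- The scale is at most `2 log (l + 1) + 12`. -/
lemma scaleT_le {l : ℝ} (hl : 1 ≤ l) : (scaleT l : ℝ) ≤ 2 * Real.log (l + 1) + 12 := by
  unfold scaleT
  have h0 : 0 ≤ Real.log (l + 1) := Real.log_nonneg (by linarith)
  have h1 : (⌈Real.log (l + 1)⌉₊ : ℝ) < Real.log (l + 1) + 1 := Nat.ceil_lt_add_one h0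
  push_cast
  linarith

/-- The base is at most a constant times `(1 + l)^(1 + δ)`. -/
lemma baseT_le_rpow {δ : ℝ} (hδ : 0 < δ) {l : ℝ} (hl : 1 ≤ l) :
    baseT l ≤ (12 * (4 / δ + 12) ^ 2) * (1 + l) ^ (1 + δ) := by
  have hl1 : (0 : ℝ) < 1 + l := by linarith
  have hl2 : (1 : ℝ) ≤ 1 + l := by linarith
  have hdelta : 0 < δ / 2 := by linarith
  have hlog : Real.log (1 + l) ≤ (1 + l) ^ (δ / 2) / (δ / 2) :=
    Real.log_le_rpow_div hl1.le hdelta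
  have hone : (1 : ℝ) ≤ (1 + l) ^ (δ / 2) := Real.one_le_rpow hl2 hdelta.le
  have hs := scaleT_le hl
  have hcomm : l + 1 = 1 + l := by ring
  rw [hcomm] at hs
  have hs0 : (0 : ℝ) ≤ (scaleT l : ℝ) := Nat.cast_nonneg _
  have hs1 : (scaleT l : ℝ) ≤ (4 / δ + 12) * (1 + l) ^ (δ / 2) := by
    have h2 : (1 + l) ^ (δ / 2) / (δ / 2) = (2 / δ) * (1 + l) ^ (δ / 2) := by
      field_simp
    rw [h2] at hlog
    have h3 : 2 * Real.log (1 + l) ≤ (4 / δ) * (1 + l) ^ (δ / 2) := by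
      have : (4 / δ) * (1 + l) ^ (δ / 2) = 2 * ((2 / δ) * (1 + l) ^ (δ / 2)) := by
        field_simp; ring
      rw [this]; linarith
    nlinarith
  have hsq : (scaleT l : ℝ) ^ 2 ≤ (4 / δ + 12) ^ 2 * (1 + l) ^ δ := by
    have h4 : ((4 / δ + 12) * (1 + l) ^ (δ / 2)) ^ 2 = (4 / δ + 12) ^ 2 * (1 + l) ^ δ := by
      rw [mul_pow, ← Real.rpow_natCast ((1 + l) ^ (δ / 2)) 2, ← Real.rpow_mul hl1.le]
      norm_num
    rw [← h4]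
    exact pow_le_pow_left₀ hs0 hs1 2
  unfold baseT
  have hrpow : (1 + l) ^ (1 + δ) = (1 + l) * (1 + l) ^ δ := by
    rw [Real.rpow_add hl1, Real.rpow_one]
  rw [hrpow]
  have hpos : (0 : ℝ) ≤ (1 + l) ^ δ := Real.rpow_nonneg hl1.le _
  have h5 : (12 * l) * (scaleT l : ℝ) ^ 2 ≤ (12 * (1 + l)) * ((4 / δ + 12) ^ 2 * (1 + l) ^ δ) := by
    apply mul_le_mul (by linarith) hsq (by positivity) (by linarith)
  calc 12 * l * (scaleT l : ℝ) ^ 2 ≤ (12 * (1 + l)) * ((4 / δ + 12) ^ 2 * (1 + l) ^ δ) := h5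
    _ = _ := by ring

/-- For every `ε > 0` there are `b₁` and `C₀` with, for all `l ≥ 1`, `T = (baseT l)^(1 / b₁)`:
`1 ≤ T`, `l ≤ T^b₁`, and `sqrt (baseT l) * T ≤ C₀ (1 + l)^(1/2 + ε)`.
Note `baseT l ≤ C_δ (1 + l)^(1 + δ)` as `scaleT l ≤ 2 log (l + 1) + 12`. -/
lemma exists_parT (ε : ℝ) (hε : 0 < ε) :
    ∃ (b₁ : ℕ) (C₀ : ℝ), 1 ≤ b₁ ∧ 0 < C₀ ∧ ∀ l : ℝ, 1 ≤ l →
      1 ≤ (baseT l) ^ (1 / (b₁ : ℝ)) ∧ l ≤ ((baseT l) ^ (1 / (b₁ : ℝ))) ^ b₁ ∧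
      Real.sqrt (baseT l) * (baseT l) ^ (1 / (b₁ : ℝ)) ≤ C₀ * (1 + l) ^ (1 / 2 + ε) := by
  -- parameters
  set η : ℝ := min ε 1 with hη
  have hη0 : 0 < η := lt_min hε one_pos
  have hηε : η ≤ ε := min_le_left _ _
  have hη1 : η ≤ 1 := min_le_right _ _
  obtain ⟨b₁', hb₁'⟩ := exists_nat_gt (4 / η)
  set b₁ : ℕ := b₁' + 1 with hb₁def
  have hb₁pos : (0 : ℝ) < (b₁ : ℝ) := by
    rw [hb₁def]; positivity
  have hb₁gt : 4 / η < (b₁ : ℝ) := by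
    rw [hb₁def]; push_cast; linarith
  have h1b : 1 / (b₁ : ℝ) ≤ η / 4 := by
    rw [div_lt_iff₀ hη0] at hb₁gt
    rw [div_le_div_iff₀ hb₁pos (by norm_num)]
    linarith
  have h1b0 : 0 < 1 / (b₁ : ℝ) := by positivity
  set δ : ℝ := η / 2 with hδ
  have hδ0 : 0 < δ := by positivity
  set A : ℝ := 12 * (4 / δ + 12) ^ 2 with hA
  have hA0 : 0 < A := by positivity
  have hexp : (1 / 2 + 1 / (b₁ : ℝ)) * (1 + δ) ≤ 1 / 2 + ε := by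
    have h6 : (1 / (b₁ : ℝ)) * δ ≤ (η / 4) * δ := by
      exact mul_le_mul_of_nonneg_right h1b hδ0.le
    have h7 : (η / 4) * δ ≤ η / 8 := by
      rw [hδ]; nlinarith
    have : (1 / 2 + 1 / (b₁ : ℝ)) * (1 + δ) = 1 / 2 + 1 / (b₁ : ℝ) + δ / 2 + (1 / (b₁ : ℝ)) * δ := by
      ring
    rw [this]
    have hδ' : δ = η / 2 := hδ
    linarith
  refine ⟨b₁, A ^ (1 / 2 + 1 / (b₁ : ℝ)), by rw [hb₁def]; omega, by positivity, ?_⟩
  intro l hl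
  obtain ⟨hB1, _, _, hBl⟩ := baseT_facts hl
  have hB0 : 0 < baseT l := by linarith
  have hl1 : (1 : ℝ) ≤ 1 + l := by linarith
  refine ⟨Real.one_le_rpow hB1 h1b0.le, ?_, ?_⟩
  · have : ((baseT l) ^ (1 / (b₁ : ℝ))) ^ b₁ = baseT l := by
      rw [← Real.rpow_natCast, ← Real.rpow_mul hB0.le]
      have hne : (b₁ : ℝ) ≠ 0 := hb₁pos.ne'
      rw [one_div, inv_mul_cancel₀ hne, Real.rpow_one]
    rw [this]; exact hBl
  · have h8 : Real.sqrt (baseT l) * (baseT l) ^ (1 / (b₁ : ℝ)) =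
        (baseT l) ^ (1 / 2 + 1 / (b₁ : ℝ)) := by
      rw [Real.sqrt_eq_rpow, Real.rpow_add hB0]
    rw [h8]
    have h9 : baseT l ≤ A * (1 + l) ^ (1 + δ) := baseT_le_rpow hδ0 hl
    have hexp0 : 0 ≤ 1 / 2 + 1 / (b₁ : ℝ) := by positivity
    calc (baseT l) ^ (1 / 2 + 1 / (b₁ : ℝ))
        ≤ (A * (1 + l) ^ (1 + δ)) ^ (1 / 2 + 1 / (b₁ : ℝ)) :=
          Real.rpow_le_rpow hB0.le h9 hexp0
      _ = A ^ (1 / 2 + 1 / (b₁ : ℝ)) * (1 + l) ^ ((1 + δ) * (1 / 2 + 1 / (b₁ : ℝ))) := by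
          rw [Real.mul_rpow hA0.le (by positivity), ← Real.rpow_mul (by linarith)]
      _ ≤ A ^ (1 / 2 + 1 / (b₁ : ℝ)) * (1 + l) ^ (1 / 2 + ε) := by
          apply mul_le_mul_of_nonneg_left _ (by positivity)
          apply Real.rpow_le_rpow_of_exponent_le hl1
          linarith [mul_comm (1 + δ) (1 / 2 + 1 / (b₁ : ℝ))]

end Vale.Agent.Lib.P064T
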