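import Vale.Agent.Lib.P064T.ChainT
import Vale.Agent.Lib.P064T.NumT

/-!
Part H2: the embedding bound with per-edge loss `(1 + l)^(1/2 + ε)`, plus the pendant term.
-/

open Finset

namespace Vale.Agent.Lib.P064T

open Vale.Agent.Lib.P064 Vale.Agent.Lib.P064E Vale.Agent.Lib.P064U
open scoped Classical

/-- `EmbBound` is monotone in the per-edge factor. -/
lemma embBound_mono {V : Type} [Fintype V] {H : SimpleGraph V} {n : ℕ} {Θ Θ' : ℝ} (h0 : 0 ≤ Θ)
    (hle : Θ ≤ Θ') (h : EmbBound n H Θ) : EmbBound n H Θ' := by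
  intro β _ G hiso hvn
  refine (h β G hiso hvn).trans ?_
  have hd0 : (0 : ℝ) ≤ (n.descFactorial (Fintype.card β) : ℝ) := Nat.cast_nonneg _
  exact mul_le_mul_of_nonneg_right (pow_le_pow_left₀ h0 hle _) hd0

/-- The embedding bound, for `q` in the standing range. -/
theorem embBound_T (ε : ℝ) (hε : 0 < ε) :
    ∃ C : ℝ, 0 < C ∧ ∀ (n : ℕ) (q l lam : ℝ) (V : Type) [Fintype V] (H : SimpleGraph V),
      Std n q l lam → GoodDensity n q H → Fintype.card V ≤ n →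
      EmbBound n H (C * (q * (1 + l) ^ (1 / 2 + ε) + l / (n : ℝ))) := by
  obtain ⟨b₁, C₀, hb₁, hC₀, hpar⟩ := exists_parT ε hε
  obtain ⟨E, hE⟩ : ∃ E : ℝ, E = Real.exp (19 + 4) * ((b₁ : ℝ) ^ (2 * b₁)) := ⟨_, rfl⟩
  have hE0 : 0 ≤ E := by
    rw [hE]
    positivity
  refine ⟨Real.exp 2 * (E * C₀ + 1), by positivity, ?_⟩
  intro n q l lam V _ H hs hG hV
  have hl1 := hs.l1
  have hq0 := hs.q0
  have hn1 : (1 : ℝ) ≤ (n : ℝ) := by exact_mod_cast hs.n1
  have hn0 : (0 : ℝ) < (n : ℝ) := by linarith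
  obtain ⟨hT1, hlT, hRT⟩ := hpar l hl1
  obtain ⟨hB1, _, hB2, hB3⟩ := baseT_facts hl1
  obtain ⟨R, hR⟩ : ∃ R, R = Real.sqrt (baseT l) := ⟨_, rfl⟩
  obtain ⟨T, hT⟩ : ∃ T, T = (baseT l) ^ (1 / (b₁ : ℝ)) := ⟨_, rfl⟩
  rw [← hR, ← hT] at hRT
  rw [← hT] at hT1 hlT
  have hRsq : R ^ 2 = baseT l := by
    rw [hR]
    exact Real.sq_sqrt (by linarith)
  have hR1 : 1 ≤ R := by
    rw [hR]
    exact Real.one_le_sqrt.2 hB1
  have hRT0 : 0 ≤ R * T := by
    apply mul_nonneg <;> linarith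
  obtain ⟨Λ, hΛdef⟩ : ∃ Λ, Λ = E * (R * T) + l / ((n : ℝ) * q) := ⟨_, rfl⟩
  have hlnq : 0 ≤ l / ((n : ℝ) * q) := by
    apply div_nonneg <;> first | linarith | positivity
  have hER : 0 ≤ E * (R * T) := mul_nonneg hE0 hRT0
  have hΛ0 : 0 ≤ Λ := by
    rw [hΛdef]
    linarith
  have hp : BlockPar n q l b₁ R T Λ := by
    refine ⟨hR1, hT1, hb₁, hlT, ?_, ?_, ?_, ?_⟩
    · rw [hRsq]
      exact hB2
    · rw [hRsq]
      exact hB3
    · rw [hΛdef, mul_assoc, ← hE]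
      linarith
    · rw [hΛdef]
      linarith
  have hblock : ∀ (β : Type) [Fintype β] (G : SimpleGraph β) (K C : Finset β),
      MinBlock G l lam K C → BlockGoalT G H n q Λ K C := by
    intro β _ G K C hb
    rw [hR] at hp
    exact block_allT hG hs hV hb hp
  have hmain := embBound_chainT hG hs hΛ0 hblock
  refine embBound_mono (by positivity) ?_ hmain
  have h1 : (1 + l) ^ (1 / 2 + ε) ≥ 0 := by positivity
  have hln : 0 ≤ l / (n : ℝ) := by
    apply div_nonneg <;> linarith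
  have heq : q * Λ = q * E * (R * T) + l / (n : ℝ) := by
    rw [hΛdef]
    field_simp
  have hbound : q * Λ ≤ (E * C₀ + 1) * (q * (1 + l) ^ (1 / 2 + ε) + l / (n : ℝ)) := by
    rw [heq]
    have h2 : q * E * (R * T) ≤ q * E * (C₀ * (1 + l) ^ (1 / 2 + ε)) :=
      mul_le_mul_of_nonneg_left hRT (by positivity)
    have h3 : 0 ≤ E * C₀ * (l / (n : ℝ)) := by positivity
    have h4 : 0 ≤ q * (1 + l) ^ (1 / 2 + ε) := by positivity
    nlinarith
  calc Real.exp 2 * q * Λ = Real.exp 2 * (q * Λ) := by ring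
    _ ≤ Real.exp 2 * ((E * C₀ + 1) * (q * (1 + l) ^ (1 / 2 + ε) + l / (n : ℝ))) :=
        mul_le_mul_of_nonneg_left hbound (Real.exp_pos _).le
    _ = _ := by ring

end Vale.Agent.Lib.P064T
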