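import Vale.Agent.Lib.P064T.Defs

/-!
Part X4: image sets through a matching, and restrictions over a fixed image set.
-/

open Finset

namespace Vale.Agent.Lib.P064T

open Vale.Agent.Lib.P064 Vale.Agent.Lib.P064E Vale.Agent.Lib.P064U
open scoped Classical

variable {V α : Type} [Fintype V] [Fintype α] {F : SimpleGraph α}

/-- Image sets through a matching. Same proof as `card_image_sets_le` of `P064U.ISets`. -/
theorem card_image_sets_match {Q : Finset α} {M : Finset (Sym2 α)} (hM : IsMatching F Q M)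
    (S : Finset (α → V)) (U : Finset (Sym2 V))
    (hinj : ∀ φ ∈ S, Function.Injective φ)
    (hU : ∀ φ ∈ S, ∀ e ∈ M, Sym2.map φ e ∈ U)
    (hW : ∀ φ ∈ S, ∀ w ∈ Q \ vs M, φ w ∈ vs U) :
    (S.image (fun φ => Q.image φ)).card ≤
      U.card.choose M.card * (vs U).card.choose (Q \ vs M).card := by
  classical
  let T := (U.powersetCard M.card) ×ˢ ((vs U).powersetCard (Q \ vs M).card)
  have hsub : S.image (fun φ => Q.image φ) ⊆ T.image (fun p => vs p.1 ∪ p.2) := by
    intro I hI
    obtain ⟨φ, hφ, rfl⟩ := Finset.mem_image.1 hI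
    refine Finset.mem_image.2 ⟨(M.image (Sym2.map φ), (Q \ vs M).image φ), ?_, ?_⟩
    · refine Finset.mem_product.2 ⟨Finset.mem_powersetCard.2 ⟨?_, ?_⟩, Finset.mem_powersetCard.2 ⟨?_, ?_⟩⟩
      · intro e he
        obtain ⟨e₀, he₀, rfl⟩ := Finset.mem_image.1 he
        exact hU φ hφ e₀ he₀
      · exact Finset.card_image_of_injective _ (Sym2.map.injective (hinj φ hφ))
      · intro x hx
        obtain ⟨w, hw, rfl⟩ := Finset.mem_image.1 hx
        exact hW φ hφ w hw
      · exact Finset.card_image_of_injective _ (hinj φ hφ)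
    · exact (image_eq_vs_union hM.vs_subset φ).symm
  calc (S.image (fun φ => Q.image φ)).card ≤ (T.image (fun p => vs p.1 ∪ p.2)).card :=
        Finset.card_le_card hsub
    _ ≤ T.card := Finset.card_image_le
    _ = _ := by
        simp [T, Finset.card_product, Finset.card_powersetCard]

/-- Rich form: at most `(12 l)^g exp e` image sets if `|U| ≤ 3 e l`. -/
theorem card_image_sets_exp {Q : Finset α} {M : Finset (Sym2 α)} (hM : IsMatching F Q M)
    (S : Finset (α → V)) (U : Finset (Sym2 V)) {e l : ℝ} (he : 0 ≤ e) (hl : 0 ≤ l)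
    (hinj : ∀ φ ∈ S, Function.Injective φ)
    (hU : ∀ φ ∈ S, ∀ e ∈ M, Sym2.map φ e ∈ U)
    (hW : ∀ φ ∈ S, ∀ w ∈ Q \ vs M, φ w ∈ vs U)
    (hcard : (U.card : ℝ) ≤ 3 * e * l) :
    ((S.image (fun φ => Q.image φ)).card : ℝ) ≤ (12 * l) ^ pieces Q M * Real.exp e := by
  have h1 := card_image_sets_match hM S U hinj hU hW
  have h2 := choose_mul_choose_le_exp (ν := M.card) (w := (Q \ vs M).card) he hl (vs_card_le U) hcard
  exact le_trans (by exact_mod_cast h1) h2

/-- Poor form: at most `(2 N)^g` image sets, `N = |U|`. -/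
theorem card_image_sets_pow {Q : Finset α} {M : Finset (Sym2 α)} (hM : IsMatching F Q M)
    (S : Finset (α → V)) (U : Finset (Sym2 V))
    (hinj : ∀ φ ∈ S, Function.Injective φ)
    (hU : ∀ φ ∈ S, ∀ e ∈ M, Sym2.map φ e ∈ U)
    (hW : ∀ φ ∈ S, ∀ w ∈ Q \ vs M, φ w ∈ vs U) :
    (S.image (fun φ => Q.image φ)).card ≤ (2 * U.card) ^ pieces Q M :=
  (card_image_sets_match hM S U hinj hU hW).trans (choose_mul_choose_le_pow (vs_card_le U))

/-- Over a fixed image set a restriction is a map `Q → W₀`: so at most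
(number of image sets) `× |Q| ^ |Q|` restrictions. -/
theorem card_restrictions_le (S : Finset (α → V)) (Q : Finset α)
    (hinj : ∀ φ ∈ S, Function.Injective φ) :
    (S.image (proj Q)).card ≤ (S.image (fun φ => Q.image φ)).card * Q.card ^ Q.card := by
  classical
  set R := S.image (proj Q) with hR
  let g : (α → Option V) → Finset V := fun ψ => Q.biUnion fun x => (ψ x).toFinset
  have hg : ∀ φ : α → V, g (proj Q φ) = Q.image φ := by
    intro φ
    ext w
    simp only [g, Finset.mem_biUnion, Finset.mem_image, proj]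
    constructor
    · rintro ⟨x, hx, hw⟩
      rw [if_pos hx] at hw
      simp only [Option.mem_toFinset, Option.mem_def, Option.some.injEq] at hw
      exact ⟨x, hx, hw⟩
    · rintro ⟨x, hx, rfl⟩
      refine ⟨x, hx, ?_⟩
      rw [if_pos hx]
      simp
  have h1 : R.card ≤ Q.card ^ Q.card * (R.image g).card := by
    refine Finset.card_le_mul_card_image R _ ?_
    intro W₀ hW₀
    obtain ⟨ψ₀, hψ₀, rfl⟩ := Finset.mem_image.1 hW₀
    obtain ⟨φ₀, _, rfl⟩ := Finset.mem_image.1 hψ₀
    rw [hg φ₀]
    set W₀ := Q.image φ₀ with hW₀def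
    have hcard : W₀.card ≤ Q.card := Finset.card_image_le
    let A : α → Finset (Option V) := fun x => if x ∈ Q then W₀.image some else {none}
    have hsub : R.filter (fun ψ => g ψ = W₀) ⊆ Fintype.piFinset A := by
      intro ψ hψ
      obtain ⟨h2, h3⟩ := Finset.mem_filter.1 hψ
      obtain ⟨φ, _, rfl⟩ := Finset.mem_image.1 h2
      rw [hg φ] at h3
      refine Fintype.mem_piFinset.2 ?_
      intro x
      by_cases hx : x ∈ Q
      · simp only [A, if_pos hx, proj]
        refine Finset.mem_image.2 ⟨φ x, ?_, rfl⟩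
        rw [← h3]
        exact Finset.mem_image_of_mem _ hx
      · simp [A, hx, proj]
    refine (Finset.card_le_card hsub).trans ?_
    rw [Fintype.card_piFinset]
    have h4 : ∀ x, (A x).card ≤ if x ∈ Q then Q.card else 1 := by
      intro x
      by_cases hx : x ∈ Q
      · simp only [A, if_pos hx]
        exact Finset.card_image_le.trans hcard
      · simp [A, hx]
    calc ∏ x, (A x).card ≤ ∏ x, (if x ∈ Q then Q.card else 1) :=
          Finset.prod_le_prod' (fun x _ => h4 x)
      _ = Q.card ^ Q.card := by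
          rw [Finset.prod_ite_mem, Finset.univ_inter]
          simp
  have h2 : R.image g ⊆ S.image (fun φ => Q.image φ) := by
    intro W hW
    obtain ⟨ψ, hψ, rfl⟩ := Finset.mem_image.1 hW
    obtain ⟨φ, hφ, rfl⟩ := Finset.mem_image.1 hψ
    rw [hg φ]
    exact Finset.mem_image_of_mem _ hφ
  calc R.card ≤ Q.card ^ Q.card * (R.image g).card := h1
    _ ≤ Q.card ^ Q.card * (S.image (fun φ => Q.image φ)).card :=
        Nat.mul_le_mul_left _ (Finset.card_le_card h2)
    _ = _ := mul_comm _ _

end Vale.Agent.Lib.P064T
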