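import Vale.Agent.Lib.P064T.Defs

/-!
Part X2: Lemma H. A set with an exit and all degrees at least two is a matching plus a rest with
`2 (|M| + |W|) ≤ e_Q`.
-/

open Finset

namespace Vale.Agent.Lib.P064T

open Vale.Agent.Lib.P064 Vale.Agent.Lib.P064E Vale.Agent.Lib.P064U
open scoped Classical

variable {α : Type} [Fintype α] {F : SimpleGraph α} {K Q : Finset α}

private lemma tch_card_add {Q' Q : Finset α} (hQ' : Q' ⊆ Q) (hQ : Q ⊆ K) {A : Finset (Sym2 α)}
    (hA : A ⊆ tch F K Q) (hd : Disjoint (tch F K Q') A) :
    (tch F K Q').card + A.card ≤ (tch F K Q).card := by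
  rw [← card_union_of_disjoint hd]
  exact card_le_card (union_subset (tch_mono hQ' hQ) hA)

private lemma lemma_H_aux (N : ℕ) :
    ∀ Q : Finset α, Q.card ≤ N → Q ⊆ K → HasExit F K Q →
      (∀ y ∈ Q, 2 ≤ (tch F K {y}).card) →
      ∃ M, IsMatching F Q M ∧ 2 * pieces Q M ≤ (tch F K Q).card := by
  induction N with
  | zero =>
    intro Q hc _ _ _
    have hQ0 : Q = ∅ := card_eq_zero.1 (by omega)
    subst hQ0
    refine ⟨∅, ⟨by simp, by simp⟩, ?_⟩
    simp [pieces]
  | succ N ih =>
    intro Q hc hQK hex hdeg
    rcases Q.eq_empty_or_nonempty with rfl | hne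
    · refine ⟨∅, ⟨by simp, by simp⟩, ?_⟩
      simp [pieces]
    obtain ⟨z, hzQ, w, hw, hzw⟩ := hex Q (Subset.refl _) hne
    have hwK : w ∈ K := (mem_sdiff.1 hw).1
    have hwQ : w ∉ Q := (mem_sdiff.1 hw).2
    by_cases hy : ∃ y ∈ Q, F.Adj z y
    · obtain ⟨y, hyQ, hzy⟩ := hy
      have hzne : z ≠ y := hzy.ne
      set Q' := Q \ {z, y} with hQ'def
      have hQ'Q : Q' ⊆ Q := sdiff_subset
      have hzQ' : z ∉ Q' := by simp [hQ'def]
      have hyQ' : y ∉ Q' := by simp [hQ'def]
      have hcard : Q'.card ≤ N := by
        have h1 : Q'.card < Q.card := card_lt_card ⟨hQ'Q, fun h => hzQ' (h hzQ)⟩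
        omega
      obtain ⟨M', hM', hp'⟩ := ih Q' hcard (hQ'Q.trans hQK) (hex.mono hQ'Q)
        (fun u hu => hdeg u (hQ'Q hu))
      have hvs : vs M' ⊆ Q' := hM'.vs_subset
      have hzy_in : s(z, y) ∉ M' := by
        intro h
        exact hzQ' (hvs (mem_vs_iff.2 ⟨_, h, by simp⟩))
      refine ⟨insert s(z, y) M', ⟨?_, ?_⟩, ?_⟩
      · intro e he
        rcases mem_insert.1 he with rfl | he
        · exact mem_eIn_pair.2 ⟨hzy, hzQ, hyQ⟩
        · have h1 := hM'.sub he
          induction e using Sym2.ind with
          | _ a b =>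
            obtain ⟨h2, h3, h4⟩ := mem_eIn_pair.1 h1
            exact mem_eIn_pair.2 ⟨h2, hQ'Q h3, hQ'Q h4⟩
      · have hkey : ∀ e ∈ M', Disjoint (s(z, y) : Sym2 α).toFinset e.toFinset := by
          intro e he
          rw [disjoint_left]
          intro x hx hxe
          have hx' : x = z ∨ x = y := by simpa using hx
          have hxv : x ∈ vs M' := mem_vs_iff.2 ⟨e, he, by simpa using hxe⟩
          rcases hx' with rfl | rfl
          · exact hzQ' (hvs hxv)
          · exact hyQ' (hvs hxv)
        intro e he e' he' hne'
        rcases mem_insert.1 he with rfl | he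
        · rcases mem_insert.1 he' with rfl | he'
          · exact absurd rfl hne'
          · exact hkey e' he'
        · rcases mem_insert.1 he' with rfl | he'
          · exact (hkey e he).symm
          · exact hM'.disj e he e' he' hne'
      · have hsd : Q \ vs (insert s(z, y) M') = Q' \ vs M' := by
          ext x
          simp only [mem_sdiff, mem_vs_iff, mem_insert, hQ'def, not_exists, not_and]
          constructor
          · rintro ⟨hxQ, hx⟩
            refine ⟨⟨hxQ, ?_⟩, fun e he => hx e (Or.inr he)⟩
            intro hh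
            have hx' : x = z ∨ x = y := by simpa using hh
            rcases hx' with rfl | rfl
            · exact hx s(x, y) (Or.inl rfl) (by simp)
            · exact hx s(z, x) (Or.inl rfl) (by simp)
          · rintro ⟨⟨hxQ, hx2⟩, hx⟩
            refine ⟨hxQ, ?_⟩
            rintro e (rfl | he) hxe
            · exact hx2 (by simpa using hxe)
            · exact hx e he hxe
        have hpc : pieces Q (insert s(z, y) M') = pieces Q' M' + 1 := by
          unfold pieces
          rw [hsd, card_insert_of_notMem hzy_in]
          omega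
        set A : Finset (Sym2 α) := {s(z, y), s(z, w)} with hAdef
        have hAc : A.card = 2 := by
          apply card_pair
          intro h
          have : w = y := by
            have h' := Sym2.congr_right.1 h
            exact h'.symm
          exact hwQ (this ▸ hyQ)
        have hAsub : A ⊆ tch F K Q := by
          intro e he
          rcases mem_insert.1 he with rfl | he
          · exact (mem_tch_pair hQK).2 ⟨hzy, hQK hzQ, hQK hyQ, Or.inl hzQ⟩
          · rw [mem_singleton] at he
            subst he
            exact (mem_tch_pair hQK).2 ⟨hzw, hQK hzQ, hwK, Or.inl hzQ⟩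
        have hdis : Disjoint (tch F K Q') A := by
          rw [disjoint_right]
          intro e he hin
          rcases mem_insert.1 he with rfl | he
          · obtain ⟨_, _, _, h4⟩ := (mem_tch_pair (hQ'Q.trans hQK)).1 hin
            rcases h4 with h | h
            · exact hzQ' h
            · exact hyQ' h
          · rw [mem_singleton] at he
            subst he
            obtain ⟨_, _, _, h4⟩ := (mem_tch_pair (hQ'Q.trans hQK)).1 hin
            rcases h4 with h | h
            · exact hzQ' h
            · exact hwQ (hQ'Q h)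
        have h3 := tch_card_add (F := F) hQ'Q hQK hAsub hdis
        rw [hAc] at h3
        rw [hpc]
        omega
    · push Not at hy
      set Q' := Q.erase z with hQ'def
      have hQ'Q : Q' ⊆ Q := erase_subset _ _
      have hzQ' : z ∉ Q' := by simp [hQ'def]
      have hcard : Q'.card ≤ N := by
        have h1 : Q'.card < Q.card := card_lt_card ⟨hQ'Q, fun h => hzQ' (h hzQ)⟩
        omega
      obtain ⟨M', hM', hp'⟩ := ih Q' hcard (hQ'Q.trans hQK) (hex.mono hQ'Q)
        (fun u hu => hdeg u (hQ'Q hu))
      have hvs : vs M' ⊆ Q' := hM'.vs_subset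
      refine ⟨M', ⟨?_, hM'.disj⟩, ?_⟩
      · intro e he
        have h1 := hM'.sub he
        induction e using Sym2.ind with
        | _ a b =>
          obtain ⟨h2, h3, h4⟩ := mem_eIn_pair.1 h1
          exact mem_eIn_pair.2 ⟨h2, hQ'Q h3, hQ'Q h4⟩
      · have hsd : Q \ vs M' = insert z (Q' \ vs M') := by
          ext x
          simp only [mem_sdiff, mem_insert, hQ'def, mem_erase]
          constructor
          · rintro ⟨hxQ, hx⟩
            by_cases hxz : x = z
            · exact Or.inl hxz
            · exact Or.inr ⟨⟨hxz, hxQ⟩, hx⟩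
          · rintro (rfl | ⟨⟨_, hxQ⟩, hx⟩)
            · exact ⟨hzQ, fun h => hzQ' (hvs h)⟩
            · exact ⟨hxQ, hx⟩
        have hzn : z ∉ Q' \ vs M' := fun h => hzQ' (mem_sdiff.1 h).1
        have hpc : pieces Q M' = pieces Q' M' + 1 := by
          unfold pieces
          rw [hsd, card_insert_of_notMem hzn]
          omega
        have hzK : z ∈ K := hQK hzQ
        have hAsub : tch F K {z} ⊆ tch F K Q :=
          tch_mono (singleton_subset_iff.2 hzQ) hQK
        have hdis : Disjoint (tch F K Q') (tch F K {z}) := by
          rw [disjoint_left]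
          intro e he1 he2
          induction e using Sym2.ind with
          | _ a b =>
            obtain ⟨h1, _, _, h4⟩ := (mem_tch_pair (hQ'Q.trans hQK)).1 he1
            obtain ⟨_, _, _, h5⟩ := (mem_tch_pair (singleton_subset_iff.2 hzK)).1 he2
            simp only [mem_singleton] at h5
            rcases h5 with rfl | rfl
            · rcases h4 with h | h
              · exact hzQ' h
              · exact hy b (hQ'Q h) h1
            · rcases h4 with h | h
              · exact hy a (hQ'Q h) h1.symm
              · exact hzQ' h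
        have h3 := tch_card_add (F := F) hQ'Q hQK hAsub hdis
        have h4 := hdeg z hzQ
        rw [hpc]
        omega

/-- **Lemma H.** Induction on `|Q|`. By `HasExit` with `Z = Q` some `z ∈ Q` has a neighbour `w` in
`K \ Q`. If `z` has a neighbour `y` in `Q`: put `zy` in `M`, pass to `Q \ {z, y}`: `tch` misses
`zy` and `zw`. Otherwise `z` goes to `W`, pass to `Q \ {z}`: the at least two edges at `z` leave. -/
theorem lemma_H (hQ : Q ⊆ K) (hex : HasExit F K Q) (hdeg : ∀ y ∈ Q, 2 ≤ (tch F K {y}).card) :
    ∃ M, IsMatching F Q M ∧ 2 * pieces Q M ≤ (tch F K Q).card :=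
  lemma_H_aux Q.card Q le_rfl hQ hex hdeg

end Vale.Agent.Lib.P064T
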