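import Vale.Agent.Lib.P064T.Exit
import Vale.Agent.Lib.P064T.LemmaH
import Vale.Agent.Lib.P064T.ISetsT

/-!
Part L1: the base of the level recursion with exponent one half.
-/

open Finset

namespace Vale.Agent.Lib.P064T

open Vale.Agent.Lib.P064 Vale.Agent.Lib.P064E Vale.Agent.Lib.P064U
open scoped Classical

variable {V α : Type} [Fintype V] [Fintype α] {F : SimpleGraph α} {H : SimpleGraph V} {n : ℕ}
  {q l lam : ℝ} {K C : Finset α}

/-- Numeric part of the base: restrictions at most `(12 l)^g exp e * k^k`, `k ≤ s`, `k ≤ 2 g`, `2 g ≤ m`,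
`1 ≤ s`, `12 l s^2 ≤ R^2`: at most `R^m exp e`. -/
lemma base_numeric {g k s m : ℕ} {l R e : ℝ} (hl : 0 ≤ l) (hR1 : 1 ≤ R) (hs : 1 ≤ s)
    (hR : 12 * l * (s : ℝ) ^ 2 ≤ R ^ 2) (hks : k ≤ s) (hk : k ≤ 2 * g) (hgm : 2 * g ≤ m) :
    (12 * l) ^ g * Real.exp e * (k : ℝ) ^ k ≤ R ^ m * Real.exp e := by
  have hs' : (1 : ℝ) ≤ s := by exact_mod_cast hs
  have h1 : (k : ℝ) ^ k ≤ ((s : ℝ) ^ 2) ^ g := by
    calc (k : ℝ) ^ k ≤ (s : ℝ) ^ k :=
          pow_le_pow_left₀ (Nat.cast_nonneg _) (by exact_mod_cast hks) _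
      _ ≤ (s : ℝ) ^ (2 * g) := pow_le_pow_right₀ hs' hk
      _ = ((s : ℝ) ^ 2) ^ g := by rw [pow_mul]
  have h2 : (12 * l) ^ g * ((s : ℝ) ^ 2) ^ g ≤ R ^ m := by
    calc (12 * l) ^ g * ((s : ℝ) ^ 2) ^ g = (12 * l * (s : ℝ) ^ 2) ^ g := (mul_pow _ _ _).symm
      _ ≤ (R ^ 2) ^ g := pow_le_pow_left₀ (by positivity) hR g
      _ = R ^ (2 * g) := by rw [pow_mul]
      _ ≤ R ^ m := pow_le_pow_right₀ hR1 hgm
  have h3 : 0 ≤ (12 * l) ^ g := by positivity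
  calc (12 * l) ^ g * Real.exp e * (k : ℝ) ^ k = ((12 * l) ^ g * (k : ℝ) ^ k) * Real.exp e := by ring
    _ ≤ ((12 * l) ^ g * ((s : ℝ) ^ 2) ^ g) * Real.exp e := by
        apply mul_le_mul_of_nonneg_right _ (Real.exp_pos _).le
        exact mul_le_mul_of_nonneg_left h1 h3
    _ ≤ R ^ m * Real.exp e := mul_le_mul_of_nonneg_right h2 (Real.exp_pos _).le

/-- The base of the recursion. Lemma H (degrees at least two, exit) gives `M`, `2 g ≤ e_Q`;
`card_image_sets_exp` and `card_restrictions_le` count; `base_numeric` finishes. The vertices off `M` have an edge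
in `tch F K Q` by `MinBlock.exists_inner`. -/
theorem level_baseT (hs : Std n q l lam) (hb : MinBlock F l lam K C) (h2 : 2 ≤ C.card)
    {s : ℕ} {R : ℝ} (hR1 : 1 ≤ R) (hR : 12 * l * (s : ℝ) ^ 2 ≤ R ^ 2) :
    LevelH F H l K C s R 1 := by
  intro Q hQC hQne hQs hex S U hemb hag hUH hSU hUcard
  have hl1 := hs.l1
  have hl0 : 0 < l := by linarith
  have hQK : Q ⊆ K := hQC.trans hb.sub
  have hs1 : 1 ≤ s := (Finset.card_pos.2 hQne).trans_le hQs
  have he0 : (0 : ℝ) ≤ ((tch F K Q).card : ℝ) := Nat.cast_nonneg _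
  have hdeg : ∀ y ∈ Q, 2 ≤ (tch F K {y}).card := fun y hy =>
    two_le_deg hb h2 hl1 hs.lam_le (hQC hy)
  obtain ⟨M, hM, hMg⟩ := lemma_H hQK hex hdeg
  have hinjS : ∀ φ ∈ S, Function.Injective φ := fun φ hφ => (hemb φ hφ).1
  have hUm : ∀ φ ∈ S, ∀ e ∈ M, Sym2.map φ e ∈ U := by
    intro φ hφ e he
    apply hSU φ hφ
    exact Finset.mem_image_of_mem _ (hM.subset_tch hQK he)
  have hWv : ∀ φ ∈ S, ∀ w ∈ Q \ vs M, φ w ∈ vs U := by
    intro φ hφ w hw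
    have hwQ := (Finset.mem_sdiff.1 hw).1
    obtain ⟨y, hy, hxy⟩ := hb.exists_inner h2 (hQC hwQ)
    have h3 : s(φ w, φ y) ∈ U := by
      apply hSU φ hφ
      exact Finset.mem_image.2 ⟨s(w, y), (mem_tch_pair hQK).2 ⟨hxy, hQK hwQ, hb.sub hy, Or.inl hwQ⟩, rfl⟩
    exact Finset.mem_biUnion.2 ⟨_, h3, by simp⟩
  have hsets := card_image_sets_exp hM S U he0 hl0.le hinjS hUm hWv hUcard
  have hrest := card_restrictions_le S Q hinjS
  have hrest' : ((S.image (proj Q)).card : ℝ) ≤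
      ((S.image (fun φ => Q.image φ)).card : ℝ) * (Q.card : ℝ) ^ Q.card := by
    exact_mod_cast hrest
  have hk2g : Q.card ≤ 2 * pieces Q M := hM.card_le_two_pieces
  have hnum := base_numeric (e := ((tch F K Q).card : ℝ)) hl0.le hR1 hs1 hR hQs hk2g hMg
  refine hrest'.trans ?_
  rw [one_mul]
  refine le_trans ?_ hnum
  exact mul_le_mul_of_nonneg_right hsets (by positivity)

end Vale.Agent.Lib.P064T
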