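import Vale.Agent.Lib.P064T.Defs

/-!
Part X3: the trunk lemma. A set covered by the orbits of few sources has a large matching.
-/

open Finset

namespace Vale.Agent.Lib.P064T

open Vale.Agent.Lib.P064 Vale.Agent.Lib.P064E Vale.Agent.Lib.P064U
open scoped Classical

variable {α : Type} [Fintype α] {F : SimpleGraph α}

private lemma eIn_mono_aux {S T : Finset α} (h : S ⊆ T) : eIn F S ⊆ eIn F T := by
  intro e he
  simp only [eIn, Finset.mem_filter, Finset.mem_univ, true_and] at he ⊢
  exact ⟨he.1, fun x hx => h (he.2 x hx)⟩

private lemma pieces_insert_aux {Q₀ : Finset α} {a b : α} {M : Finset (Sym2 α)} (haQ : a ∈ Q₀)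
    (hbQ : b ∈ Q₀) (hab : F.Adj a b) (hM : IsMatching F ((Q₀.erase a).erase b) M) :
    IsMatching F Q₀ (insert s(a, b) M) ∧
      pieces Q₀ (insert s(a, b) M) = pieces ((Q₀.erase a).erase b) M + 1 := by
  have hvs := hM.vs_subset
  have ha' : a ∉ vs M := by
    intro h
    have := hvs h
    simp at this
  have hb' : b ∉ vs M := by
    intro h
    have := hvs h
    simp at this
  have hnot : s(a, b) ∉ M := fun h => ha' (mem_vs_iff.2 ⟨_, h, by simp⟩)
  have hsubQ : (Q₀.erase a).erase b ⊆ Q₀ :=
    (Finset.erase_subset _ _).trans (Finset.erase_subset _ _)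
  constructor
  · refine ⟨?_, ?_⟩
    · intro e he
      rcases Finset.mem_insert.1 he with rfl | he
      · exact mem_eIn_pair.2 ⟨hab, haQ, hbQ⟩
      · exact eIn_mono_aux hsubQ (hM.sub he)
    · intro e he e' he' hne
      have key : ∀ f ∈ M, Disjoint (s(a, b)).toFinset f.toFinset := by
        intro f hf
        rw [Finset.disjoint_left]
        intro x hx hxf
        have hx' : x = a ∨ x = b := by simpa using hx
        have hxf' : x ∈ f := by simpa using hxf
        rcases hx' with rfl | rfl
        · exact ha' (mem_vs_iff.2 ⟨f, hf, hxf'⟩)
        · exact hb' (mem_vs_iff.2 ⟨f, hf, hxf'⟩)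
      rcases Finset.mem_insert.1 he with rfl | he1 <;> rcases Finset.mem_insert.1 he' with rfl | he2
      · exact absurd rfl hne
      · exact key e' he2
      · exact (key e he1).symm
      · exact hM.disj e he1 e' he2 hne
  · unfold pieces
    rw [Finset.card_insert_of_notMem hnot]
    have h1 : Q₀ \ vs (insert s(a, b) M) = ((Q₀.erase a).erase b) \ vs M := by
      ext x
      simp only [Finset.mem_sdiff, mem_vs_iff, Finset.mem_insert, Finset.mem_erase]
      constructor
      · rintro ⟨hx, hn⟩
        refine ⟨⟨?_, ?_, hx⟩, ?_⟩
        · intro hxb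
          exact hn ⟨s(a, b), Or.inl rfl, by simp [hxb]⟩
        · intro hxa
          exact hn ⟨s(a, b), Or.inl rfl, by simp [hxa]⟩
        · rintro ⟨e, he, hxe⟩
          exact hn ⟨e, Or.inr he, hxe⟩
      · rintro ⟨⟨hxb, hxa, hx⟩, hn⟩
        refine ⟨hx, ?_⟩
        rintro ⟨e, he | he, hxe⟩
        · subst he
          have : x = a ∨ x = b := by simpa using hxe
          tauto
        · exact hn ⟨e, he, hxe⟩
    rw [h1]
    omega

private lemma trunk_aux (N : ℕ) : ∀ (Q₀ Lf : Finset α) (p : α → α), Q₀.card = N → Lf ⊆ Q₀ →
    (∀ x ∈ Q₀, p x = x ∨ (p x ∈ Q₀ ∧ F.Adj x (p x))) →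
    (∀ T : Finset α, Lf ⊆ T → (∀ x ∈ T, x ∈ Q₀ → p x ∈ T) → Q₀ ⊆ T) →
    ∃ M, IsMatching F Q₀ M ∧ 2 * pieces Q₀ M ≤ (eIn F Q₀).card + 2 * Lf.card := by
  induction N using Nat.strong_induction_on with
  | _ N ih =>
    intro Q₀ Lf p hN hlf hadj hreach
    by_cases hQ : Q₀ = ∅
    · subst hQ
      refine ⟨∅, ⟨by simp, by simp⟩, ?_⟩
      simp [pieces]
    have hLf : Lf.Nonempty := by
      by_contra hne
      rw [Finset.not_nonempty_iff_eq_empty] at hne
      have := hreach ∅ (by simp [hne]) (by simp)
      exact hQ (Finset.subset_empty.1 this)
    obtain ⟨a, ha⟩ := hLf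
    have haQ := hlf ha
    have hLfa : (Lf.erase a).card + 1 = Lf.card := Finset.card_erase_add_one ha
    by_cases hb : p a = a
    · -- the source is a fixed point
      have hcard : (Q₀.erase a).card < N := by
        rw [← hN]
        exact Finset.card_erase_lt_of_mem haQ
      have hadj' : ∀ x ∈ Q₀.erase a,
          (if p x = a then x else p x) = x ∨
            ((if p x = a then x else p x) ∈ Q₀.erase a ∧ F.Adj x (if p x = a then x else p x)) := by
        intro x hx
        by_cases hxa : p x = a
        · left
          rw [if_pos hxa]
        · rw [if_neg hxa]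
          rcases hadj x (Finset.mem_of_mem_erase hx) with h | ⟨h1, h2⟩
          · exact Or.inl h
          · exact Or.inr ⟨Finset.mem_erase.2 ⟨hxa, h1⟩, h2⟩
      have hreach' : ∀ T : Finset α, Lf.erase a ⊆ T →
          (∀ x ∈ T, x ∈ Q₀.erase a → (if p x = a then x else p x) ∈ T) → Q₀.erase a ⊆ T := by
        intro T hT hclosed
        have h1 := hreach (insert a T)
          (by
            intro x hx
            by_cases hxa : x = a
            · simp [hxa]
            · exact Finset.mem_insert_of_mem (hT (Finset.mem_erase.2 ⟨hxa, hx⟩)))
          (by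
            intro x hx hxQ
            by_cases hxa : x = a
            · rw [hxa, hb]
              exact Finset.mem_insert_self _ _
            · have hxT : x ∈ T := by
                rcases Finset.mem_insert.1 hx with h | h
                · exact absurd h hxa
                · exact h
              by_cases hpx : p x = a
              · rw [hpx]
                exact Finset.mem_insert_self _ _
              · have := hclosed x hxT (Finset.mem_erase.2 ⟨hxa, hxQ⟩)
                rw [if_neg hpx] at this
                exact Finset.mem_insert_of_mem this)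
        intro x hx
        have hx' := Finset.mem_erase.1 hx
        rcases Finset.mem_insert.1 (h1 hx'.2) with h | h
        · exact absurd h hx'.1
        · exact h
      obtain ⟨M, hM, hcount⟩ := ih _ hcard (Q₀.erase a) (Lf.erase a)
        (fun x => if p x = a then x else p x) rfl (Finset.erase_subset_erase a hlf) hadj' hreach'
      refine ⟨M, ⟨hM.sub.trans (eIn_mono_aux (Finset.erase_subset _ _)), hM.disj⟩, ?_⟩
      have ha' : a ∉ vs M := by
        intro h
        have := hM.vs_subset h
        simp at this
      have h2 : Q₀ \ vs M = insert a ((Q₀.erase a) \ vs M) := by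
        ext x
        simp only [Finset.mem_sdiff, Finset.mem_insert, Finset.mem_erase]
        constructor
        · rintro ⟨hx, hn⟩
          by_cases hxa : x = a
          · exact Or.inl hxa
          · exact Or.inr ⟨⟨hxa, hx⟩, hn⟩
        · rintro (rfl | ⟨⟨_, hx⟩, hn⟩)
          · exact ⟨haQ, ha'⟩
          · exact ⟨hx, hn⟩
      have h3 : (Q₀ \ vs M).card = ((Q₀.erase a) \ vs M).card + 1 := by
        rw [h2, Finset.card_insert_of_notMem]
        simp
      have h4 : (eIn F (Q₀.erase a)).card ≤ (eIn F Q₀).card :=
        Finset.card_le_card (eIn_mono_aux (Finset.erase_subset _ _))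
      unfold pieces at hcount ⊢
      omega
    · -- an edge of the matching
      rcases hadj a haQ with h | ⟨hbQ, hab⟩
      · exact absurd h hb
      set b := p a with hbdef
      have hne : a ≠ b := hab.ne
      have hcard : ((Q₀.erase a).erase b).card < N := by
        rw [← hN]
        exact lt_of_le_of_lt (Finset.card_erase_le) (Finset.card_erase_lt_of_mem haQ)
      have hadj' : ∀ x ∈ (Q₀.erase a).erase b,
          (if p x = a ∨ p x = b then x else p x) = x ∨
            ((if p x = a ∨ p x = b then x else p x) ∈ (Q₀.erase a).erase b ∧
              F.Adj x (if p x = a ∨ p x = b then x else p x)) := by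
        intro x hx
        by_cases hxa : p x = a ∨ p x = b
        · left
          rw [if_pos hxa]
        · rw [if_neg hxa]
          have hx1 : x ∈ Q₀ := Finset.mem_of_mem_erase (Finset.mem_of_mem_erase hx)
          rcases hadj x hx1 with h | ⟨h1, h2⟩
          · exact Or.inl h
          · push_neg at hxa
            exact Or.inr ⟨Finset.mem_erase.2 ⟨hxa.2, Finset.mem_erase.2 ⟨hxa.1, h1⟩⟩, h2⟩
      have hLf0 : ∀ x ∈ Lf, x ≠ a → x ≠ b → x ∈ (Lf.erase a).erase b := by
        intro x hx h1 h2
        exact Finset.mem_erase.2 ⟨h2, Finset.mem_erase.2 ⟨h1, hx⟩⟩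
      -- the closure property, for a set `L` of sources containing the rest of `Lf` and `p b`
      have hreach' : ∀ L : Finset α, (Lf.erase a).erase b ⊆ L →
          ((p b ≠ a ∧ p b ≠ b) → p b ∈ L) →
          ∀ T : Finset α, L ⊆ T →
          (∀ x ∈ T, x ∈ (Q₀.erase a).erase b → (if p x = a ∨ p x = b then x else p x) ∈ T) →
            (Q₀.erase a).erase b ⊆ T := by
        intro L hL1 hL2 T hT hclosed
        have h1 := hreach (insert a (insert b T))
          (by
            intro x hx
            by_cases hxa : x = a
            · simp [hxa]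
            · by_cases hxb : x = b
              · simp [hxb]
              · exact Finset.mem_insert_of_mem (Finset.mem_insert_of_mem
                  (hT (hL1 (hLf0 x hx hxa hxb)))))
          (by
            intro x hx hxQ
            by_cases hxa : x = a
            · rw [hxa, ← hbdef]
              exact Finset.mem_insert_of_mem (Finset.mem_insert_self _ _)
            · by_cases hxb : x = b
              · rw [hxb]
                by_cases hc : p b = a ∨ p b = b
                · rcases hc with hc | hc
                  · rw [hc]
                    exact Finset.mem_insert_self _ _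
                  · rw [hc]
                    exact Finset.mem_insert_of_mem (Finset.mem_insert_self _ _)
                · push_neg at hc
                  exact Finset.mem_insert_of_mem (Finset.mem_insert_of_mem (hT (hL2 hc)))
              · have hxT : x ∈ T := by
                  rcases Finset.mem_insert.1 hx with h | h
                  · exact absurd h hxa
                  · rcases Finset.mem_insert.1 h with h | h
                    · exact absurd h hxb
                    · exact h
                by_cases hpx : p x = a ∨ p x = b
                · rcases hpx with hpx | hpx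
                  · rw [hpx]
                    exact Finset.mem_insert_self _ _
                  · rw [hpx]
                    exact Finset.mem_insert_of_mem (Finset.mem_insert_self _ _)
                · have := hclosed x hxT
                    (Finset.mem_erase.2 ⟨hxb, Finset.mem_erase.2 ⟨hxa, hxQ⟩⟩)
                  rw [if_neg hpx] at this
                  exact Finset.mem_insert_of_mem (Finset.mem_insert_of_mem this))
        intro x hx
        have hx' := Finset.mem_erase.1 hx
        have hx'' := Finset.mem_erase.1 hx'.2
        rcases Finset.mem_insert.1 (h1 hx''.2) with h | h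
        · exact absurd h hx''.1
        · rcases Finset.mem_insert.1 h with h | h
          · exact absurd h hx'.1
          · exact h
      have hLfle : ((Lf.erase a).erase b).card + 1 ≤ Lf.card := by
        have : ((Lf.erase a).erase b).card ≤ (Lf.erase a).card := Finset.card_erase_le
        omega
      have hsubL : (Lf.erase a).erase b ⊆ (Q₀.erase a).erase b :=
        Finset.erase_subset_erase b (Finset.erase_subset_erase a hlf)
      have hinQ : (eIn F ((Q₀.erase a).erase b)) ⊆ eIn F Q₀ :=
        eIn_mono_aux ((Finset.erase_subset _ _).trans (Finset.erase_subset _ _))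
      have habnot : s(a, b) ∉ eIn F ((Q₀.erase a).erase b) := by
        intro h
        have := (mem_eIn_pair.1 h).2.1
        simp at this
      have habin : s(a, b) ∈ eIn F Q₀ := mem_eIn_pair.2 ⟨hab, haQ, hbQ⟩
      by_cases hc : p b = a ∨ p b = b
      · -- the orbit stops after `b`
        have hr := hreach' ((Lf.erase a).erase b) (Finset.Subset.refl _)
          (fun h => absurd hc (by push_neg; exact h))
        obtain ⟨M, hM, hcount⟩ := ih _ hcard ((Q₀.erase a).erase b) ((Lf.erase a).erase b)
          (fun x => if p x = a ∨ p x = b then x else p x) rfl hsubL hadj' hr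
        obtain ⟨h1, h2⟩ := pieces_insert_aux haQ hbQ hab hM
        refine ⟨_, h1, ?_⟩
        have h3 : (insert s(a, b) (eIn F ((Q₀.erase a).erase b))).card ≤ (eIn F Q₀).card := by
          refine Finset.card_le_card ?_
          intro e he
          rcases Finset.mem_insert.1 he with rfl | he
          · exact habin
          · exact hinQ he
        rw [Finset.card_insert_of_notMem habnot] at h3
        rw [h2]
        omega
      · -- the orbit goes on from `p b`
        have hc' := hc
        push_neg at hc'
        have hcQ : p b ∈ Q₀ ∧ F.Adj b (p b) := by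
          rcases hadj b hbQ with h | h
          · exact absurd h hc'.2
          · exact h
        have hr := hreach' (insert (p b) ((Lf.erase a).erase b)) (Finset.subset_insert _ _)
          (fun _ => Finset.mem_insert_self _ _)
        have hsubL' : insert (p b) ((Lf.erase a).erase b) ⊆ (Q₀.erase a).erase b := by
          intro x hx
          rcases Finset.mem_insert.1 hx with rfl | hx
          · exact Finset.mem_erase.2 ⟨hc'.2, Finset.mem_erase.2 ⟨hc'.1, hcQ.1⟩⟩
          · exact hsubL hx
        obtain ⟨M, hM, hcount⟩ := ih _ hcard ((Q₀.erase a).erase b)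
          (insert (p b) ((Lf.erase a).erase b))
          (fun x => if p x = a ∨ p x = b then x else p x) rfl hsubL' hadj' hr
        obtain ⟨h1, h2⟩ := pieces_insert_aux haQ hbQ hab hM
        refine ⟨_, h1, ?_⟩
        have hbcnot : s(b, p b) ∉ insert s(a, b) (eIn F ((Q₀.erase a).erase b)) := by
          intro h
          rcases Finset.mem_insert.1 h with h | h
          · rw [Sym2.eq_iff] at h
            rcases h with ⟨h3, _⟩ | ⟨_, h3⟩
            · exact hne h3.symm
            · exact hc'.1 h3
          · have := (mem_eIn_pair.1 h).2.1
            simp at this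
        have h3 : (insert s(b, p b) (insert s(a, b) (eIn F ((Q₀.erase a).erase b)))).card ≤
            (eIn F Q₀).card := by
          refine Finset.card_le_card ?_
          intro e he
          rcases Finset.mem_insert.1 he with rfl | he
          · exact mem_eIn_pair.2 ⟨hcQ.2, hbQ, hcQ.1⟩
          rcases Finset.mem_insert.1 he with rfl | he
          · exact habin
          · exact hinQ he
        rw [Finset.card_insert_of_notMem hbcnot, Finset.card_insert_of_notMem habnot] at h3
        have h5 : (insert (p b) ((Lf.erase a).erase b)).card ≤ ((Lf.erase a).erase b).card + 1 :=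
          Finset.card_insert_le _ _
        rw [h2]
        omega

/-- **Trunk.** `Q₀` is reached from `Lf` by `p`, consecutive vertices adjacent. Then `F[Q₀]` has a matching
with `2 (|M| + |W|) ≤ i₀ + 2 |Lf|`, `i₀` the number of edges inside `Q₀`.

Proof by strong induction on `|Q₀|`. `Q₀` empty: trivial. Otherwise `Lf` is nonempty (closure with `T = Lf`); take
`a ∈ Lf`, `b = p a`.
(1) `b = a`: pass to `Q₀ \ {a}`, `Lf \ {a}`, `p' x = if p x = a then x else p x`.
(2) `b ≠ a`: `ab` is an edge of `F[Q₀]`. Pass to `Q'' = Q₀ \ {a, b}`, `p'' x = if p x ∈ {a, b} then x else p x`, and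
`Lf'' = Lf \ {a, b}` together with `p b` if `p b ∉ {a, b}`. Closure for `Q''`: if `T` contains `Lf''` and is closed under `p''`
on `Q''`, then `T ∪ {a, b}` contains `Lf` and is closed under `p` on `Q₀`.
Add `ab` to the matching. Count: `g = g'' + 1`, and either `p b ∉ {a, b}`, when two edges `ab`, `b (p b)` are lost and
`|Lf''| ≤ |Lf|`, or `p b ∈ {a, b}`, when one edge is lost and `|Lf''| ≤ |Lf| - 1`. -/
theorem trunk (Q₀ Lf : Finset α) (p : α → α) (hlf : Lf ⊆ Q₀)
    (hadj : ∀ x ∈ Q₀, p x = x ∨ (p x ∈ Q₀ ∧ F.Adj x (p x)))
    (hreach : ∀ T : Finset α, Lf ⊆ T → (∀ x ∈ T, x ∈ Q₀ → p x ∈ T) → Q₀ ⊆ T) :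
    ∃ M, IsMatching F Q₀ M ∧ 2 * pieces Q₀ M ≤ (eIn F Q₀).card + 2 * Lf.card :=
  trunk_aux _ Q₀ Lf p rfl hlf hadj hreach

end Vale.Agent.Lib.P064T
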