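import Vale.Agent.Lib.P064T.LevelS

/-!
Part L3: three levels.
-/

open Finset

namespace Vale.Agent.Lib.P064T

open Vale.Agent.Lib.P064 Vale.Agent.Lib.P064E Vale.Agent.Lib.P064U
open scoped Classical

variable {V α : Type} [Fintype V] [Fintype α] {F : SimpleGraph α} {H : SimpleGraph V} {n : ℕ}
  {q l lam : ℝ} {K C : Finset α}

/-- The scale. -/
noncomputable def scaleT (l : ℝ) : ℕ := 2 * ⌈Real.log (l + 1)⌉₊ + 10

/-- The base. -/
noncomputable def baseT (l : ℝ) : ℝ := 12 * l * (scaleT l : ℝ) ^ 2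

lemma log_succ_le_ceil (l : ℝ) : Real.log (l + 1) ≤ (⌈Real.log (l + 1)⌉₊ : ℝ) :=
  Nat.le_ceil _

lemma scaleT_cast (l : ℝ) : (scaleT l : ℝ) = 2 * (⌈Real.log (l + 1)⌉₊ : ℝ) + 10 := by
  simp [scaleT]

lemma scaleT_ge_ten (l : ℝ) : (10 : ℝ) ≤ scaleT l := by
  rw [scaleT_cast]
  have : (0 : ℝ) ≤ (⌈Real.log (l + 1)⌉₊ : ℝ) := Nat.cast_nonneg _
  linarith

lemma log_le_scaleT_aux {l : ℝ} (hl : 1 ≤ l) : Real.log (l + 1) ≤ scaleT l := by
  rw [scaleT_cast]
  have h1 := log_succ_le_ceil l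
  have h2 : (0 : ℝ) ≤ (⌈Real.log (l + 1)⌉₊ : ℝ) := Nat.cast_nonneg _
  linarith

/-- `log (l + 1) ≤ scaleT l`, and `log s₁ ≤ scaleT l` for `s₁ = max (scaleT l) ⌈l⌉₊`. -/
lemma log_le_scaleT {l : ℝ} (hl : 1 ≤ l) :
    Real.log (max (scaleT l) ⌈l⌉₊ : ℕ) ≤ scaleT l := by
  rcases max_cases (scaleT l) ⌈l⌉₊ with ⟨h, _⟩ | ⟨h, _⟩
  · rw [h]
    have h10 := scaleT_ge_ten l
    exact (Real.log_le_self (by linarith))
  · rw [h]
    have hc : (⌈l⌉₊ : ℝ) ≤ l + 1 := (Nat.ceil_lt_add_one (by linarith)).le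
    have hc0 : (0 : ℝ) < (⌈l⌉₊ : ℝ) := by
      have : 0 < ⌈l⌉₊ := Nat.ceil_pos.2 (by linarith)
      exact_mod_cast this
    exact (Real.log_le_log hc0 hc).trans (log_le_scaleT_aux hl)

/-- `baseT l ≤ exp (scaleT l)`: `log 12 + log l + 2 log (2 x + 10) ≤ 2 x + 10`, `x = ⌈log (l + 1)⌉₊`. -/
lemma baseT_le_exp {l : ℝ} (hl : 1 ≤ l) : baseT l ≤ Real.exp (scaleT l) := by
  set x : ℝ := (⌈Real.log (l + 1)⌉₊ : ℝ) with hx
  have hx0 : 0 ≤ x := Nat.cast_nonneg _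
  have hlx : l ≤ Real.exp x := by
    have h1 : Real.log (l + 1) ≤ x := log_succ_le_ceil l
    have h2 : l + 1 ≤ Real.exp x := (Real.log_le_iff_le_exp (by linarith)).1 h1
    linarith
  have hs : (scaleT l : ℝ) = 2 * x + 10 := scaleT_cast l
  unfold baseT
  rw [hs]
  set y : ℝ := x + 5 with hy
  have hy0 : 0 ≤ y := by positivity
  have h3 : y ^ 2 / 2 ≤ Real.exp y := by
    have := Real.quadratic_le_exp_of_nonneg hy0
    nlinarith
  have h5 : (96 : ℝ) ≤ Real.exp 5 := by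
    have he : (2.7 : ℝ) ≤ Real.exp 1 := by
      have := Real.exp_one_gt_d9
      norm_num at this ⊢
      linarith
    have h6 : Real.exp 5 = Real.exp 1 ^ 5 := by
      rw [← Real.exp_nat_mul]
      norm_num
    rw [h6]
    calc (96 : ℝ) ≤ 2.7 ^ 5 := by norm_num
      _ ≤ _ := pow_le_pow_left₀ (by norm_num) he 5
  have h7 : 12 * (2 * x + 10) ^ 2 ≤ Real.exp (x + 10) := by
    have h8 : Real.exp (x + 10) = Real.exp y * Real.exp 5 := by
      rw [← Real.exp_add]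
      congr 1
      rw [hy]
      ring
    rw [h8]
    have h9 : (2 * x + 10) = 2 * y := by rw [hy]; ring
    rw [h9]
    have h10 : y ^ 2 / 2 * 96 ≤ Real.exp y * Real.exp 5 :=
      mul_le_mul h3 h5 (by norm_num) (Real.exp_pos _).le
    nlinarith
  calc 12 * l * (2 * x + 10) ^ 2 = l * (12 * (2 * x + 10) ^ 2) := by ring
    _ ≤ Real.exp x * Real.exp (x + 10) :=
        mul_le_mul hlx h7 (by positivity) (Real.exp_pos _).le
    _ = Real.exp (2 * x + 10) := by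
        rw [← Real.exp_add]
        congr 1
        ring

/-- `1 ≤ baseT l`, `12 l ≤ baseT l`, `6 l (1 + log l) ≤ baseT l`, `l ≤ baseT l`. -/
lemma baseT_facts {l : ℝ} (hl : 1 ≤ l) :
    1 ≤ baseT l ∧ 12 * l ≤ baseT l ∧ 6 * l * (1 + Real.log l) ≤ baseT l ∧ l ≤ baseT l := by
  have h10 := scaleT_ge_ten l
  have hs1 : (1 : ℝ) ≤ (scaleT l : ℝ) ^ 2 := by nlinarith
  have h12 : 12 * l ≤ baseT l := by
    unfold baseT
    nlinarith
  have hlog : 1 + Real.log l ≤ 2 * (scaleT l : ℝ) ^ 2 := by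
    have h1 : Real.log l ≤ Real.log (l + 1) := Real.log_le_log (by linarith) (by linarith)
    have h2 := log_le_scaleT_aux hl
    nlinarith
  refine ⟨by linarith, h12, ?_, by linarith⟩
  unfold baseT
  have hl0 : 0 ≤ 6 * l := by linarith
  have := mul_le_mul_of_nonneg_left hlog hl0
  nlinarith

/-- The final count: three levels `scaleT l → max (scaleT l) ⌈l⌉₊ → n`, with `R = sqrt (baseT l)`.
The step to `n` has `log n = l ≤ ⌈l⌉₊`. -/
theorem level_topT (hG : GoodDensity n q H) (hs : Std n q l lam) (hb : MinBlock F l lam K C)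
    (h2 : 2 ≤ C.card) :
    LevelH F H l K C n (Real.sqrt (baseT l)) 19 := by
  have hl := hs.l1
  obtain ⟨hb1, hb12, _, _⟩ := baseT_facts hl
  have hb0 : 0 ≤ baseT l := by linarith
  set R := Real.sqrt (baseT l) with hRdef
  have hR1 : 1 ≤ R := by
    rw [hRdef]
    exact Real.one_le_sqrt.2 hb1
  have hR2 : R ^ 2 = baseT l := Real.sq_sqrt hb0
  have hs10 : (10 : ℝ) ≤ scaleT l := scaleT_ge_ten l
  have hs1 : 1 ≤ scaleT l := by
    have : (1 : ℝ) ≤ scaleT l := by linarith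
    exact_mod_cast this
  have hbase : LevelH F H l K C (scaleT l) R 1 :=
    level_baseT hs hb h2 hR1 (by rw [hR2]; rfl)
  have hstep1 : LevelH F H l K C (max (scaleT l) ⌈l⌉₊) R (1 + 9) :=
    level_stepT hG hs hb h2 hs1 (log_le_scaleT hl) hR1 (by rw [hR2]; exact hb12)
      (by rw [hR2]; exact baseT_le_exp hl) (by norm_num) hbase
  have hs1' : 1 ≤ max (scaleT l) ⌈l⌉₊ := hs1.trans (le_max_left _ _)
  have hmax1 : (⌈l⌉₊ : ℝ) ≤ ((max (scaleT l) ⌈l⌉₊ : ℕ) : ℝ) := by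
    exact_mod_cast le_max_right _ _
  have hmax2 : (scaleT l : ℝ) ≤ ((max (scaleT l) ⌈l⌉₊ : ℕ) : ℝ) := by
    exact_mod_cast le_max_left _ _
  have hstep2 : LevelH F H l K C n R (1 + 9 + 9) :=
    level_stepT hG hs hb h2 hs1'
      (by
        rw [← hs.l_eq]
        exact (Nat.le_ceil l).trans hmax1)
      hR1 (by rw [hR2]; exact hb12)
      (by
        rw [hR2]
        exact (baseT_le_exp hl).trans (Real.exp_le_exp.2 hmax2))
      (by norm_num) hstep1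
  have h19 : (1 : ℝ) + 9 + 9 = 19 := by norm_num
  rw [h19] at hstep2
  exact hstep2

end Vale.Agent.Lib.P064T
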