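import Mathlib

/-!
Part B2: the numeric inequalities for one block. Here `x = n^b q^m`, `1 ≤ x e^m`,
`Λ ≥ exp (c + 4) b₁^(2 b₁) R T`.
-/

namespace Vale.Agent.Lib.P064T

variable {m b b₁ : ℕ} {x t R T c Λ l : ℝ}

private lemma nat_le_exp (m : ℕ) : (m : ℝ) ≤ Real.exp m := by
  have := Real.add_one_le_exp (m : ℝ)
  linarith

private lemma base_le_Λ (hR1 : 1 ≤ R) (hT1 : 1 ≤ T) (hb₁ : 1 ≤ b₁)
    (hΛ : Real.exp (c + 4) * ((b₁ : ℝ) ^ (2 * b₁)) * R * T ≤ Λ) :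
    Real.exp (c + 4) * R ≤ Λ := by
  have hb₁pow : (1 : ℝ) ≤ (b₁ : ℝ) ^ (2 * b₁) := one_le_pow₀ (by exact_mod_cast hb₁)
  have hE := Real.exp_pos (c + 4)
  have hR0 : 0 ≤ R := by linarith
  refine le_trans ?_ hΛ
  calc Real.exp (c + 4) * R = Real.exp (c + 4) * 1 * R * 1 := by ring
    _ ≤ Real.exp (c + 4) * (b₁ : ℝ) ^ (2 * b₁) * R * T := by gcongr

/-- Case `t ≤ e^2 x`. Uses `m^2 ≤ exp (2 m)` and `e^2 ≤ e^(2 m)`. -/
lemma num_case_A (hm : 1 ≤ m) (hbm : b ≤ m) (hx : 0 ≤ x) (hR1 : 1 ≤ R) (hT1 : 1 ≤ T) (hc : 0 ≤ c)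
    (hb₁ : 1 ≤ b₁) (ht0 : 0 ≤ t) (hΛ : Real.exp (c + 4) * ((b₁ : ℝ) ^ (2 * b₁)) * R * T ≤ Λ)
    (ht : t ≤ Real.exp 2 * x) :
    t * ((b : ℝ) ^ 2 * (R ^ m * Real.exp (c * (m : ℝ)))) ≤ x * Λ ^ m := by
  have hΛ' := base_le_Λ hR1 hT1 hb₁ hΛ
  have hm0 : (1 : ℝ) ≤ m := by exact_mod_cast hm
  have hR0 : 0 < R := by linarith
  have hb2 : (b : ℝ) ^ 2 ≤ Real.exp (2 * m) := by
    have h1 : (b : ℝ) ≤ m := by exact_mod_cast hbm
    have h2 := nat_le_exp m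
    calc (b : ℝ) ^ 2 ≤ (Real.exp m) ^ 2 := by
          gcongr
          exact h1.trans h2
      _ = Real.exp (2 * m) := by
          rw [← Real.exp_nat_mul]
          norm_num
  have he2 : Real.exp 2 ≤ Real.exp (2 * m) := Real.exp_le_exp.2 (by linarith)
  calc t * ((b : ℝ) ^ 2 * (R ^ m * Real.exp (c * (m : ℝ))))
      ≤ (Real.exp 2 * x) * (Real.exp (2 * m) * (R ^ m * Real.exp (c * m))) := by gcongr
    _ ≤ (Real.exp (2 * m) * x) * (Real.exp (2 * m) * (R ^ m * Real.exp (c * m))) := by gcongr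
    _ = x * (Real.exp (c + 4) * R) ^ m := by
        rw [mul_pow, ← Real.exp_nat_mul]
        have : Real.exp (↑m * (c + 4)) =
            Real.exp (2 * m) * Real.exp (2 * m) * Real.exp (c * m) := by
          rw [← Real.exp_add, ← Real.exp_add]
          congr 1
          ring
        rw [this]
        ring
    _ ≤ x * Λ ^ m := by gcongr

/-- Case `t ≤ m l`, `b₁ ≤ m`. Uses `1 ≤ x e^m`, `m^3 ≤ exp (3 m)`, `l ≤ T^b₁ ≤ T^m`. -/
lemma num_case_B (hm : 1 ≤ m) (hbm : b ≤ m) (hx : 0 ≤ x) (hxm : 1 ≤ x * Real.exp (m : ℝ))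
    (hR1 : 1 ≤ R) (hT1 : 1 ≤ T) (hc : 0 ≤ c) (hb₁ : 1 ≤ b₁) (hb₁m : b₁ ≤ m) (hl : 0 ≤ l)
    (hlT : l ≤ T ^ b₁) (ht0 : 0 ≤ t)
    (hΛ : Real.exp (c + 4) * ((b₁ : ℝ) ^ (2 * b₁)) * R * T ≤ Λ) (ht : t ≤ (m : ℝ) * l) :
    t * ((b : ℝ) ^ 2 * (R ^ m * Real.exp (c * (m : ℝ)))) ≤ x * Λ ^ m := by
  have hb₁pow : (1 : ℝ) ≤ (b₁ : ℝ) ^ (2 * b₁) := one_le_pow₀ (by exact_mod_cast hb₁)
  have hE := Real.exp_pos (c + 4)
  have hR0 : 0 < R := by linarith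
  have hT0 : 0 < T := by linarith
  have hΛ' : Real.exp (c + 4) * R * T ≤ Λ := by
    refine le_trans ?_ hΛ
    calc Real.exp (c + 4) * R * T = Real.exp (c + 4) * 1 * R * T := by ring
      _ ≤ Real.exp (c + 4) * (b₁ : ℝ) ^ (2 * b₁) * R * T := by gcongr
  have hm0 : (1 : ℝ) ≤ m := by exact_mod_cast hm
  have hlT' : l ≤ T ^ m := hlT.trans (pow_le_pow_right₀ hT1 hb₁m)
  have hmexp := nat_le_exp m
  have hbexp : (b : ℝ) ≤ Real.exp m := le_trans (by exact_mod_cast hbm) hmexp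
  have hb0 : (0 : ℝ) ≤ b := Nat.cast_nonneg _
  have hm00 : (0 : ℝ) ≤ m := Nat.cast_nonneg _
  have h1 : t * (b : ℝ) ^ 2 ≤ Real.exp (3 * m) * T ^ m := by
    calc t * (b : ℝ) ^ 2 ≤ ((m : ℝ) * l) * (Real.exp m) ^ 2 := by gcongr
      _ ≤ (Real.exp m * T ^ m) * (Real.exp m) ^ 2 := by gcongr
      _ = Real.exp (3 * m) * T ^ m := by
          have : Real.exp (3 * m) = Real.exp m * (Real.exp m) ^ 2 := by
            rw [← Real.exp_nat_mul, ← Real.exp_add]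
            congr 1
            push_cast
            ring
          rw [this]
          ring
  have hA : 0 ≤ Real.exp (3 * m) * T ^ m * (R ^ m * Real.exp (c * (m : ℝ))) := by positivity
  calc t * ((b : ℝ) ^ 2 * (R ^ m * Real.exp (c * (m : ℝ))))
      = (t * (b : ℝ) ^ 2) * (R ^ m * Real.exp (c * (m : ℝ))) := by ring
    _ ≤ (Real.exp (3 * m) * T ^ m) * (R ^ m * Real.exp (c * (m : ℝ))) := by gcongr
    _ ≤ (x * Real.exp (m : ℝ)) * ((Real.exp (3 * m) * T ^ m) * (R ^ m * Real.exp (c * (m : ℝ)))) :=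
        le_mul_of_one_le_left hA hxm
    _ = x * (Real.exp (c + 4) * R * T) ^ m := by
        rw [mul_pow, mul_pow, ← Real.exp_nat_mul]
        have : Real.exp (↑m * (c + 4)) =
            Real.exp (m : ℝ) * Real.exp (3 * m) * Real.exp (c * m) := by
          rw [← Real.exp_add, ← Real.exp_add]
          congr 1
          ring
        rw [this]
        ring
    _ ≤ x * Λ ^ m := by gcongr

/-- Case `t ≤ m l`, `m < b₁`, through the image sets. Here `N` is the number of edges of the union,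
`2 N ≤ m^2 R^2`, `2 g ≤ m`: `(2 N)^g b^b ≤ (m^2 R^2)^g m^m ≤ m^(2 m) R^m ≤ b₁^(2 b₁) R^m ≤ x Λ^m`. -/
lemma num_case_C {g : ℕ} {N : ℝ} (hm : 1 ≤ m) (hbm : b ≤ m) (hx : 0 ≤ x)
    (hxm : 1 ≤ x * Real.exp (m : ℝ)) (hR1 : 1 ≤ R) (hT1 : 1 ≤ T) (hc : 0 ≤ c) (hmb₁ : m < b₁)
    (hN0 : 0 ≤ N) (hN : 2 * N ≤ (m : ℝ) ^ 2 * R ^ 2) (hg : 2 * g ≤ m)
    (hΛ : Real.exp (c + 4) * ((b₁ : ℝ) ^ (2 * b₁)) * R * T ≤ Λ) :
    (2 * N) ^ g * (b : ℝ) ^ b ≤ x * Λ ^ m := by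
  have hb₁1 : 1 ≤ b₁ := by omega
  have hb₁pow : (1 : ℝ) ≤ (b₁ : ℝ) ^ (2 * b₁) := one_le_pow₀ (by exact_mod_cast hb₁1)
  have hm1 : (1 : ℝ) ≤ m := by exact_mod_cast hm
  have hmb : (m : ℝ) ≤ b₁ := by exact_mod_cast hmb₁.le
  have hR0 : 0 < R := by linarith
  have hT0 : 0 < T := by linarith
  have hbase : Real.exp 1 * ((b₁ : ℝ) ^ (2 * b₁)) * R ≤ Λ := by
    refine le_trans ?_ hΛ
    have hexp : Real.exp 1 ≤ Real.exp (c + 4) := Real.exp_le_exp.2 (by linarith)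
    calc Real.exp 1 * ((b₁ : ℝ) ^ (2 * b₁)) * R
        = Real.exp 1 * ((b₁ : ℝ) ^ (2 * b₁)) * R * 1 := by ring
      _ ≤ Real.exp (c + 4) * ((b₁ : ℝ) ^ (2 * b₁)) * R * T := by gcongr
  have h1 : (2 * N) ^ g ≤ (m : ℝ) ^ m * R ^ m := by
    calc (2 * N) ^ g ≤ ((m : ℝ) ^ 2 * R ^ 2) ^ g := by gcongr
      _ = (m : ℝ) ^ (2 * g) * R ^ (2 * g) := by
          rw [mul_pow, ← pow_mul, ← pow_mul]
      _ ≤ (m : ℝ) ^ m * R ^ m :=
          mul_le_mul (pow_le_pow_right₀ hm1 hg) (pow_le_pow_right₀ hR1 hg) (by positivity)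
            (by positivity)
  have h2 : (b : ℝ) ^ b ≤ (m : ℝ) ^ m := by
    calc (b : ℝ) ^ b ≤ (m : ℝ) ^ b := by
          gcongr
      _ ≤ (m : ℝ) ^ m := pow_le_pow_right₀ hm1 hbm
  have h3 : (m : ℝ) ^ m * (m : ℝ) ^ m ≤ (b₁ : ℝ) ^ (2 * b₁) := by
    calc (m : ℝ) ^ m * (m : ℝ) ^ m = (m : ℝ) ^ (2 * m) := by
          rw [two_mul, pow_add]
      _ ≤ (b₁ : ℝ) ^ (2 * m) := by gcongr
      _ ≤ (b₁ : ℝ) ^ (2 * b₁) := by
          apply pow_le_pow_right₀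
          · exact_mod_cast hb₁1
          · omega
  have h4 : (b₁ : ℝ) ^ (2 * b₁) ≤ ((b₁ : ℝ) ^ (2 * b₁)) ^ m := le_self_pow₀ hb₁pow (by omega)
  have hpos : 0 ≤ ((b₁ : ℝ) ^ (2 * b₁)) ^ m * R ^ m := by positivity
  calc (2 * N) ^ g * (b : ℝ) ^ b ≤ ((m : ℝ) ^ m * R ^ m) * (m : ℝ) ^ m := by gcongr
    _ = ((m : ℝ) ^ m * (m : ℝ) ^ m) * R ^ m := by ring
    _ ≤ ((b₁ : ℝ) ^ (2 * b₁)) ^ m * R ^ m := by
        gcongr
        exact h3.trans h4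
    _ ≤ (x * Real.exp (m : ℝ)) * (((b₁ : ℝ) ^ (2 * b₁)) ^ m * R ^ m) :=
        le_mul_of_one_le_left hpos hxm
    _ = x * (Real.exp 1 * ((b₁ : ℝ) ^ (2 * b₁)) * R) ^ m := by
        rw [mul_pow, mul_pow, ← Real.exp_nat_mul, mul_one]
        ring
    _ ≤ x * Λ ^ m := by gcongr

/-- The edge count in case C: `N ≤ a l + t m + t max(val, 0)`, `a ≤ m`, `t ≤ m l`, `exp val < m l`, `1 ≤ m`, `1 ≤ l`,
and `6 l (1 + log l) ≤ R^2`: `2 N ≤ m^2 R^2`. -/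
lemma num_edges_C {a : ℝ} {val N : ℝ} (hm : 1 ≤ m) (hl1 : 1 ≤ l) (ha0 : 0 ≤ a) (ha : a ≤ m)
    (ht0 : 0 ≤ t) (ht : t ≤ (m : ℝ) * l) (hval : Real.exp val < (m : ℝ) * l)
    (hB : 6 * l * (1 + Real.log l) ≤ R ^ 2)
    (hN : N ≤ a * l + t * (m : ℝ) + t * max val 0) :
    2 * N ≤ (m : ℝ) ^ 2 * R ^ 2 := by
  have hm1 : (1 : ℝ) ≤ m := by exact_mod_cast hm
  have hm0 : (0 : ℝ) < m := by linarith
  have hl0 : (0 : ℝ) < l := by linarith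
  have hlogl : 0 ≤ Real.log l := Real.log_nonneg hl1
  have hlogm : Real.log m ≤ m := by
    have := Real.log_le_sub_one_of_pos hm0
    linarith
  have hml : (1 : ℝ) ≤ (m : ℝ) * l := by nlinarith
  have hmax : max val 0 ≤ Real.log m + Real.log l := by
    have h1 : val ≤ Real.log ((m : ℝ) * l) :=
      ((Real.lt_log_iff_exp_lt (by linarith)).2 hval).le
    rw [Real.log_mul hm0.ne' hl0.ne'] at h1
    have h2 : 0 ≤ Real.log m := Real.log_nonneg hm1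
    exact max_le h1 (by linarith)
  have hmax0 : 0 ≤ max val 0 := le_max_right _ _
  have h1 : a * l ≤ (m : ℝ) * l := mul_le_mul_of_nonneg_right ha hl0.le
  have h2 : t * (m : ℝ) ≤ ((m : ℝ) * l) * m := mul_le_mul_of_nonneg_right ht hm0.le
  have h3 : t * max val 0 ≤ ((m : ℝ) * l) * (m + Real.log l) := by
    apply mul_le_mul ht (by linarith) hmax0 (by positivity)
  have hR : (m : ℝ) ^ 2 * (6 * l * (1 + Real.log l)) ≤ (m : ℝ) ^ 2 * R ^ 2 :=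
    mul_le_mul_of_nonneg_left hB (by positivity)
  have h4 : (m : ℝ) * l ≤ (m : ℝ) ^ 2 * l := by nlinarith
  have h5 : (m : ℝ) * (l * Real.log l) ≤ (m : ℝ) ^ 2 * (l * Real.log l) := by
    have : 0 ≤ l * Real.log l := by positivity
    nlinarith
  nlinarith

/-- One vertex, `m ≥ 2`, `count ≤ m l`: `count ≤ x Λ^m` since `Λ ≥ e^2 R`, `l ≤ R^2`. -/
lemma num_case_one {count : ℝ} (hm : 2 ≤ m) (hx : 0 ≤ x) (hxm : 1 ≤ x * Real.exp (m : ℝ))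
    (hR1 : 1 ≤ R) (hl : 0 ≤ l) (hlR : l ≤ R ^ 2) (hΛ : Real.exp 2 * R ≤ Λ)
    (hcount : count ≤ (m : ℝ) * l) :
    count ≤ x * Λ ^ m := by
  have hR0 : 0 < R := by linarith
  have hmexp := nat_le_exp m
  have hRm : R ^ 2 ≤ R ^ m := pow_le_pow_right₀ hR1 hm
  have hm0 : (0 : ℝ) ≤ m := Nat.cast_nonneg _
  have hpos : 0 ≤ Real.exp (m : ℝ) * R ^ m := by positivity
  calc count ≤ (m : ℝ) * l := hcount
    _ ≤ Real.exp (m : ℝ) * R ^ m := by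
        apply mul_le_mul hmexp (hlR.trans hRm) hl (Real.exp_pos _).le
    _ ≤ (x * Real.exp (m : ℝ)) * (Real.exp (m : ℝ) * R ^ m) := le_mul_of_one_le_left hpos hxm
    _ = x * (Real.exp 2 * R) ^ m := by
        rw [mul_pow, ← Real.exp_nat_mul]
        have : Real.exp (↑m * 2) = Real.exp (m : ℝ) * Real.exp (m : ℝ) := by
          rw [← Real.exp_add]
          congr 1
          ring
        rw [this]
        ring
    _ ≤ x * Λ ^ m := by gcongr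

end Vale.Agent.Lib.P064T
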