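import Vale.Agent.Lib.P064T.Overlap
import Vale.Agent.Lib.P064T.BlockNumT

/-!
Part B3: parameters and basic facts for one block.
-/

open Finset

namespace Vale.Agent.Lib.P064T

open Vale.Agent.Lib.P064 Vale.Agent.Lib.P064E Vale.Agent.Lib.P064U
open scoped Classical

variable {V α : Type} [Fintype V] [Fintype α] {F : SimpleGraph α} {H : SimpleGraph V} {n : ℕ}
  {q l lam : ℝ} {K C : Finset α}

/-- The numeric parameters for the bound of one block. -/
structure BlockPar (n : ℕ) (q l : ℝ) (b₁ : ℕ) (R T Λ : ℝ) : Prop where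
  R1 : 1 ≤ R
  T1 : 1 ≤ T
  b₁1 : 1 ≤ b₁
  lT : l ≤ T ^ b₁
  B1 : 6 * l * (1 + Real.log l) ≤ R ^ 2
  lR : l ≤ R ^ 2
  Λ1 : Real.exp (19 + 4) * ((b₁ : ℝ) ^ (2 * b₁)) * R * T ≤ Λ
  Λ2 : l / ((n : ℝ) * q) ≤ Λ

/-- `n^b q^m = exp (b l - m lam)`. -/
lemma x_eq_exp (hs : Std n q l lam) (b m : ℕ) :
    (n : ℝ) ^ b * q ^ m = Real.exp ((b : ℝ) * l - (m : ℝ) * lam) := by
  have hn : (0 : ℝ) < (n : ℝ) := by
    have := hs.n1
    exact_mod_cast this
  have h1 : (n : ℝ) = Real.exp l := by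
    rw [hs.l_eq, Real.exp_log hn]
  have h2 : q = Real.exp (-lam) := by
    rw [hs.lam_eq, neg_neg, Real.exp_log hs.q0]
  have h3 : (n : ℝ) ^ b = Real.exp ((b : ℝ) * l) := by
    rw [h1, ← Real.exp_nat_mul]
  have h4 : q ^ m = Real.exp (-((m : ℝ) * lam)) := by
    rw [h2, ← Real.exp_nat_mul]
    congr 1
    ring
  rw [h3, h4, ← Real.exp_add]
  congr 1

/-- `1 ≤ x e^m` for a block, from `MinBlock.val_ge`. -/
lemma one_le_x_exp (hs : Std n q l lam) (hb : MinBlock F l lam K C) :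
    1 ≤ ((n : ℝ) ^ C.card * q ^ (tch F K C).card) * Real.exp ((tch F K C).card : ℝ) := by
  rw [x_eq_exp hs, ← Real.exp_add]
  apply Real.one_le_exp
  have := hb.val_ge
  linarith

/-- `b ≤ m` for a block with at least two vertices, from `MinBlock.sub_one_lt`. -/
lemma card_le_tch (hs : Std n q l lam) (hb : MinBlock F l lam K C) (h2 : 2 ≤ C.card) :
    C.card ≤ (tch F K C).card := by
  have h := hb.sub_one_lt h2
  have hl := hs.l1
  have hlam := hs.lam_le
  have h3 : (0 : ℝ) ≤ ((tch F K C).card : ℝ) := by positivity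
  have h4 : ((tch F K C).card : ℝ) * (lam - 1) ≤ ((tch F K C).card : ℝ) * l :=
    mul_le_mul_of_nonneg_left (by linarith) h3
  have h5 : ((C.card : ℝ) - 1) * l < ((tch F K C).card : ℝ) * l := lt_of_lt_of_le h h4
  have h6 : (C.card : ℝ) - 1 < ((tch F K C).card : ℝ) :=
    lt_of_mul_lt_mul_right h5 (by linarith)
  have h7 : (C.card : ℝ) < ((tch F K C).card : ℝ) + 1 := by linarith
  have h8 : C.card < (tch F K C).card + 1 := by exact_mod_cast h7
  omega

end Vale.Agent.Lib.P064T
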