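import Vale.Agent.Lib.P064T.BlockBasic
import Vale.Agent.Lib.P064E.Union2

/-!
Part B4: case C of one block, through the image sets.
-/

open Finset

namespace Vale.Agent.Lib.P064T

open Vale.Agent.Lib.P064 Vale.Agent.Lib.P064E Vale.Agent.Lib.P064U
open scoped Classical

variable {V α : Type} [Fintype V] [Fintype α] {F : SimpleGraph α} {H : SimpleGraph V} {n : ℕ}
  {q l lam : ℝ} {K C : Finset α}

/-- Case C of the blocks: `t ≤ |att| l`, `m < b₁`, `x < m l`. `hasExit_self`, `lemma_H` on `C`, `all_union` (with `𝓜`) and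
`card_image_sets_pow` and `card_restrictions_le`; `num_edges_C` with `x_eq_exp`, then `num_case_C`. -/
theorem block_case_C (hG : GoodDensity n q H) (hs : Std n q l lam) (hb : MinBlock F l lam K C)
    (h2 : 2 ≤ C.card) {b₁ : ℕ} {R T Λ : ℝ} (hpar : BlockPar n q l b₁ R T Λ)
    (hmb₁ : (tch F K C).card < b₁)
    (S 𝓜 : Finset (α → V)) (hsub : 𝓜 ⊆ S) (h𝓜 : 𝓜.Nonempty) (hemb : ∀ φ ∈ S, IsEmb F H φ)
    (hag : ∀ φ ∈ S, ∀ φ' ∈ S, ∀ x ∈ K \ C, φ x = φ' x)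
    (hdisj : ∀ φ ∈ 𝓜, ∀ φ' ∈ 𝓜, φ ≠ φ' → ∀ x ∈ C, ∀ y ∈ C, φ x ≠ φ' y)
    (hcov : ∀ φ ∈ S, ∃ x ∈ C, ∃ φ' ∈ 𝓜, ∃ y ∈ C, φ x = φ' y)
    (ht : (𝓜.card : ℝ) ≤ ((att F K C).card : ℝ) * l)
    (hxsmall : (n : ℝ) ^ C.card * q ^ (tch F K C).card < ((tch F K C).card : ℝ) * l) :
    ((S.image (proj C)).card : ℝ) ≤
      ((n : ℝ) ^ C.card * q ^ (tch F K C).card) * Λ ^ (tch F K C).card := by
  have hl1 : (1 : ℝ) ≤ l := hs.l1
  have hl0 : (0 : ℝ) ≤ l := by linarith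
  have hCK : C ⊆ K := hb.sub
  have ht1 : (1 : ℝ) ≤ (𝓜.card : ℝ) := by exact_mod_cast Finset.card_pos.2 h𝓜
  have hatt : (att F K C).Nonempty := by
    rw [← Finset.card_pos]
    by_contra h
    have h0 : (att F K C).card = 0 := by omega
    rw [h0] at ht
    simp only [Nat.cast_zero, zero_mul] at ht
    linarith
  have hex := hasExit_self hb hs.lam1 hatt
  obtain ⟨M, hM, hMg⟩ := lemma_H hCK hex (fun y hy => two_le_deg hb h2 hs.l1 hs.lam_le hy)
  have hall := all_union hG hs hb h2 S 𝓜 hsub hemb hag hdisj hcov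
  set U : Finset (Sym2 V) := S.biUnion (tchIm F K C) with hU
  have hinj : ∀ φ ∈ S, Function.Injective φ := fun φ hφ => (hemb φ hφ).1
  have hU1 : ∀ φ ∈ S, ∀ e ∈ M, Sym2.map φ e ∈ U := by
    intro φ hφ e he
    exact Finset.mem_biUnion.2 ⟨φ, hφ, Finset.mem_image_of_mem _ (hM.subset_tch hCK he)⟩
  have hW : ∀ φ ∈ S, ∀ w ∈ C \ vs M, φ w ∈ vs U := by
    intro φ hφ w hw
    have hwC := (Finset.mem_sdiff.1 hw).1
    obtain ⟨z, hz, hwz⟩ := hb.exists_inner h2 hwC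
    have he : s(w, z) ∈ tch F K C := (mem_tch_pair hCK).2 ⟨hwz, hCK hwC, hCK hz, Or.inl hwC⟩
    refine mem_vs_iff.2 ⟨s(φ w, φ z), Finset.mem_biUnion.2 ⟨φ, hφ, ?_⟩, by simp⟩
    exact Finset.mem_image.2 ⟨s(w, z), he, rfl⟩
  have h1 := card_image_sets_pow hM S U hinj hU1 hW
  have h3 := card_restrictions_le S C hinj
  -- numerics
  set m : ℕ := (tch F K C).card with hm
  set b : ℕ := C.card with hbdef
  have hbm : b ≤ m := card_le_tch hs hb h2
  have hm1 : 1 ≤ m := by omega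
  have hmR : (1 : ℝ) ≤ (m : ℝ) := by exact_mod_cast hm1
  have hx0 : (0 : ℝ) ≤ (n : ℝ) ^ b * q ^ m := by
    have := hs.q0
    positivity
  have hxm := one_le_x_exp hs hb
  have hattm : ((att F K C).card : ℝ) ≤ (m : ℝ) := by exact_mod_cast att_card_le hCK
  have htm : (𝓜.card : ℝ) ≤ (m : ℝ) * l := ht.trans (mul_le_mul_of_nonneg_right hattm hl0)
  have hval : Real.exp ((b : ℝ) * l - (m : ℝ) * lam) < (m : ℝ) * l := by
    rw [← x_eq_exp hs b m]
    exact hxsmall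
  have hN := num_edges_C (m := m) (l := l) (R := R) (t := (𝓜.card : ℝ))
    (a := ((att F K C).card : ℝ)) (val := (b : ℝ) * l - (m : ℝ) * lam) (N := (U.card : ℝ))
    hm1 hl1 (Nat.cast_nonneg _) hattm (Nat.cast_nonneg _) htm hval hpar.B1 hall
  have hmain := num_case_C (m := m) (b := b) (b₁ := b₁) (x := (n : ℝ) ^ b * q ^ m) (R := R) (T := T)
    (c := 19) (Λ := Λ) (g := pieces C M) (N := (U.card : ℝ))
    hm1 hbm hx0 hxm hpar.R1 hpar.T1 (by norm_num) hmb₁ (Nat.cast_nonneg _) hN hMg hpar.Λ1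
  refine le_trans ?_ hmain
  have h4 : ((S.image (proj C)).card : ℝ) ≤
      (((S.image (fun φ => C.image φ)).card * b ^ b : ℕ) : ℝ) := by
    exact_mod_cast h3
  have h5 : (((S.image (fun φ => C.image φ)).card : ℕ) : ℝ) ≤
      (((2 * U.card) ^ pieces C M : ℕ) : ℝ) := by
    exact_mod_cast h1
  refine h4.trans ?_
  push_cast at h5 ⊢
  exact mul_le_mul_of_nonneg_right h5 (by positivity)

end Vale.Agent.Lib.P064T
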