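import Vale.Agent.Lib.P064T.BlockBasic

/-!
Part B6: a block with one vertex.
-/

open Finset

namespace Vale.Agent.Lib.P064T

open Vale.Agent.Lib.P064 Vale.Agent.Lib.P064E Vale.Agent.Lib.P064U
open scoped Classical

variable {V α : Type} [Fintype V] [Fintype α] {F : SimpleGraph α} {H : SimpleGraph V} {n : ℕ}
  {q l lam : ℝ} {K C : Finset α}

/-- A block with one vertex. `m = 0`: at most `|V| ≤ n` restrictions. `m ≥ 1`: `exists_max_family`, `card_le_sum_overlap` with `N = 1`,
`family_dichotomy`: `t ≤ e^2 x`; or `t ≤ |att| l ≤ m l`, where `m = 1` gives `x = n q`, `t ≤ l = x (l / (n q))`, and `m ≥ 2` is `num_case_one`. -/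
theorem block_one (hG : GoodDensity n q H) (hs : Std n q l lam) (hV : Fintype.card V ≤ n)
    (hb : MinBlock F l lam K C) (h1 : C.card = 1) {b₁ : ℕ} {R T Λ : ℝ}
    (hpar : BlockPar n q l b₁ R T Λ) :
    BlockGoalT F H n q Λ K C := by
  intro S hemb hag
  have hq0 := hs.q0
  have hn1 : (1 : ℝ) ≤ n := by exact_mod_cast hs.n1
  have hn0 : (0 : ℝ) < n := by linarith
  have hb₁ : (1 : ℝ) ≤ (b₁ : ℝ) ^ (2 * b₁) := by
    have : (1 : ℝ) ≤ b₁ := by exact_mod_cast hpar.b₁1
    exact one_le_pow₀ this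
  have hR1 := hpar.R1
  have hT1 := hpar.T1
  have hl1 := hs.l1
  have hexp : Real.exp 2 ≤ Real.exp (19 + 4) := Real.exp_le_exp.2 (by norm_num)
  have hexp1 : (1 : ℝ) ≤ Real.exp 2 := Real.one_le_exp (by norm_num)
  have hΛR : Real.exp 2 * R ≤ Λ := by
    refine le_trans ?_ hpar.Λ1
    have h1 : Real.exp 2 * R ≤ Real.exp (19 + 4) * R :=
      mul_le_mul_of_nonneg_right hexp (by linarith)
    have h2 : (0 : ℝ) ≤ Real.exp (19 + 4) * R := by positivity
    calc Real.exp 2 * R ≤ Real.exp (19 + 4) * R := h1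
      _ ≤ Real.exp (19 + 4) * R * ((b₁ : ℝ) ^ (2 * b₁) * T) := by
          refine le_mul_of_one_le_right h2 ?_
          nlinarith
      _ = _ := by ring
  have hΛ2 : Real.exp 2 ≤ Λ := by
    refine le_trans ?_ hΛR
    have : 0 ≤ Real.exp 2 := (Real.exp_pos _).le
    nlinarith
  have hΛ1 : 1 ≤ Λ := by linarith
  have hΛ0 : 0 < Λ := by linarith
  set m := (tch F K C).card with hm
  set x := (n : ℝ) ^ C.card * q ^ m with hx
  have hx0 : 0 ≤ x := by positivity
  have hgoal0 : 0 ≤ x * Λ ^ m := by positivity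
  have hKC := card_image_proj_K_le hb.sub S hag
  have hKC' : ((S.image (proj K)).card : ℝ) ≤ ((S.image (proj C)).card : ℝ) := by
    exact_mod_cast hKC
  refine le_trans hKC' ?_
  by_cases hS : S.Nonempty
  swap
  · rw [Finset.not_nonempty_iff_eq_empty] at hS
    subst hS
    simpa using hgoal0
  obtain ⟨y, hCy⟩ := Finset.card_eq_one.1 h1
  by_cases hm0 : m = 0
  · -- no edges: at most `n` restrictions
    have h2 : (S.image (proj C)).card ≤ (Finset.univ : Finset V).card := by
      refine card_image_le_of_factor S (proj C) (fun φ => φ y) _ ?_ (fun _ _ => Finset.mem_univ _)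
      intro φ _ φ' _ h
      funext z
      unfold proj
      by_cases hz : z ∈ C
      · rw [if_pos hz, if_pos hz]
        have hzy : z = y := by
          rw [hCy] at hz
          exact Finset.mem_singleton.1 hz
        rw [hzy]
        exact congrArg some h
      · rw [if_neg hz, if_neg hz]
    have h3 : ((S.image (proj C)).card : ℝ) ≤ n := by
      have h4 : (S.image (proj C)).card ≤ n := h2.trans (by simpa using hV)
      exact_mod_cast h4
    rw [hx, hm0, h1]
    simpa using h3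
  have hm1 : 1 ≤ m := Nat.one_le_iff_ne_zero.2 hm0
  obtain ⟨𝓜, hsub, h𝓜, hdisj, hcov⟩ := exists_max_family hb.ne S hS
  have hN : ∀ φ₁ ∈ 𝓜, (((S.filter fun φ => ∃ x ∈ C, ∃ y ∈ C, φ x = φ₁ y).image (proj C)).card : ℝ) ≤ 1 := by
    intro φ₁ _
    have h2 : ((S.filter fun φ => ∃ x ∈ C, ∃ y ∈ C, φ x = φ₁ y).image (proj C)).card ≤ 1 := by
      rw [Finset.card_le_one]
      intro ψ hψ ψ' hψ'
      obtain ⟨φ, hφ, rfl⟩ := Finset.mem_image.1 hψ
      obtain ⟨φ', hφ', rfl⟩ := Finset.mem_image.1 hψ'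
      obtain ⟨x₁, hx₁, y₁, hy₁, h3⟩ := (Finset.mem_filter.1 hφ).2
      obtain ⟨x₂, hx₂, y₂, hy₂, h4⟩ := (Finset.mem_filter.1 hφ').2
      rw [hCy, Finset.mem_singleton] at hx₁ hy₁ hx₂ hy₂
      rw [hx₁, hy₁] at h3
      rw [hx₂, hy₂] at h4
      funext z
      unfold proj
      by_cases hz : z ∈ C
      · rw [if_pos hz, if_pos hz]
        have hzy : z = y := by
          rw [hCy] at hz
          exact Finset.mem_singleton.1 hz
        rw [hzy, h3, h4]
      · rw [if_neg hz, if_neg hz]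
    exact_mod_cast h2
  have hcount := card_le_sum_overlap S 𝓜 hcov (N := 1) (by norm_num) hN
  rw [mul_one] at hcount
  refine le_trans hcount ?_
  have hdich := family_dichotomy hG hs hb.sub hb.ne hm1 𝓜 h𝓜 (fun φ hφ => hemb φ (hsub hφ))
    (fun φ hφ φ' hφ' z hz => hag φ (hsub hφ) φ' (hsub hφ') z hz) hdisj
  have hatt : ((att F K C).card : ℝ) ≤ m := by
    exact_mod_cast att_card_le hb.sub
  have hatt0 : (0 : ℝ) ≤ ((att F K C).card : ℝ) := Nat.cast_nonneg _
  have hl0 : 0 ≤ l := by linarith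
  have hΛm : Λ ≤ Λ ^ m := le_self_pow₀ hΛ1 (by omega)
  rcases hdich with ht | ht
  · -- `t ≤ |att| l ≤ m l`
    by_cases hm2 : 2 ≤ m
    · have htm : (𝓜.card : ℝ) ≤ (m : ℝ) * l := ht.trans (mul_le_mul_of_nonneg_right hatt hl0)
      exact num_case_one hm2 hx0 (one_le_x_exp hs hb) hR1 hl0 hpar.lR hΛR htm
    · have hm1' : m = 1 := by omega
      have h3 : (𝓜.card : ℝ) ≤ l := by
        have : ((att F K C).card : ℝ) ≤ 1 := by
          rw [hm1'] at hatt
          simpa using hatt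
        nlinarith
      have hD : 0 < (n : ℝ) * q := by positivity
      have h4 := hpar.Λ2
      rw [div_le_iff₀ hD] at h4
      rw [hx, h1, hm1']
      simp only [pow_one]
      calc (𝓜.card : ℝ) ≤ l := h3
        _ ≤ Λ * ((n : ℝ) * q) := h4
        _ = _ := by ring
  · -- `t ≤ e^2 x`
    refine le_trans ht ?_
    rw [mul_comm]
    refine mul_le_mul_of_nonneg_left ?_ hx0
    linarith

end Vale.Agent.Lib.P064T
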