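import Vale.Agent.Lib.P064T.BlockTwo
import Vale.Agent.Lib.P064T.BlockOne

/-!
All blocks.
-/

open Finset

namespace Vale.Agent.Lib.P064T

open Vale.Agent.Lib.P064 Vale.Agent.Lib.P064E Vale.Agent.Lib.P064U
open scoped Classical

variable {V α : Type} [Fintype V] [Fintype α] {F : SimpleGraph α} {H : SimpleGraph V} {n : ℕ}
  {q l lam : ℝ} {K C : Finset α}

/-- All blocks. -/
theorem block_allT (hG : GoodDensity n q H) (hs : Std n q l lam) (hV : Fintype.card V ≤ n)
    (hb : MinBlock F l lam K C) {b₁ : ℕ} {T Λ : ℝ}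
    (hpar : BlockPar n q l b₁ (Real.sqrt (baseT l)) T Λ) :
    BlockGoalT F H n q Λ K C := by
  by_cases h2 : 2 ≤ C.card
  · exact block_two hG hs hV hb h2 hpar (level_topT hG hs hb h2)
  · have hpos : 0 < C.card := Finset.card_pos.2 hb.ne
    exact block_one hG hs hV hb (by omega) hpar

end Vale.Agent.Lib.P064T
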