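import Vale.Agent.Lib.P064T.BlockC

/-!
Part B5: a block with at least two vertices.
-/

open Finset

namespace Vale.Agent.Lib.P064T

open Vale.Agent.Lib.P064 Vale.Agent.Lib.P064E Vale.Agent.Lib.P064U
open scoped Classical

variable {V α : Type} [Fintype V] [Fintype α] {F : SimpleGraph α} {H : SimpleGraph V} {n : ℕ}
  {q l lam : ℝ} {K C : Finset α}

/-- A block with at least two vertices. `exists_max_family`, `card_image_proj_K_le`, `card_le_sum_overlap` with `overlap_bound`,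
`family_dichotomy`, then cases: `t ≤ e^2 x` by `num_case_A`; `t ≤ |att| l`, `b₁ ≤ m` by `num_case_B`; `t ≤ |att| l`, `m < b₁`:
if `m l ≤ x` then `t ≤ x ≤ e^2 x` and case A, else `block_case_C`. -/
theorem block_two (hG : GoodDensity n q H) (hs : Std n q l lam) (hV : Fintype.card V ≤ n)
    (hb : MinBlock F l lam K C) (h2 : 2 ≤ C.card) {b₁ : ℕ} {R T Λ : ℝ}
    (hpar : BlockPar n q l b₁ R T Λ) (hlev : LevelH F H l K C n R 19) :
    BlockGoalT F H n q Λ K C := by
  intro S hemb hag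
  have hq0 := hs.q0
  have hl1 := hs.l1
  have hl0 : 0 ≤ l := by linarith
  have hR1 := hpar.R1
  have hT1 := hpar.T1
  have hR0 : 0 < R := by linarith
  have hbm : C.card ≤ (tch F K C).card := card_le_tch hs hb h2
  have hm1 : 1 ≤ (tch F K C).card := by omega
  have hx0 : 0 ≤ (n : ℝ) ^ C.card * q ^ (tch F K C).card := by positivity
  have hxm := one_le_x_exp hs hb
  have hb₁ := hpar.b₁1
  have hΛ : Real.exp (19 + 4) * ((b₁ : ℝ) ^ (2 * b₁)) * R * T ≤ Λ := hpar.Λ1
  rcases S.eq_empty_or_nonempty with rfl | hS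
  · have hΛ0 : 0 ≤ Λ := le_trans (by positivity) hΛ
    simp only [Finset.image_empty, Finset.card_empty, Nat.cast_zero]
    positivity
  obtain ⟨𝓜, hsub, h𝓜, hdisj, hcov⟩ := exists_max_family hb.ne S hS
  have hK : ((S.image (proj K)).card : ℝ) ≤ ((S.image (proj C)).card : ℝ) := by
    exact_mod_cast card_image_proj_K_le hb.sub S hag
  have hN0 : (0 : ℝ) ≤ (C.card : ℝ) ^ 2 *
      (R ^ (tch F K C).card * Real.exp (19 * ((tch F K C).card : ℝ))) := by positivity
  have hov := card_le_sum_overlap (C := C) S 𝓜 hcov hN0 (fun φ₁ _ =>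
    overlap_bound hG hs hV hb h2 hR1 (by norm_num) hlev S hemb hag φ₁)
  have ht0 : (0 : ℝ) ≤ (𝓜.card : ℝ) := Nat.cast_nonneg _
  have hdich := family_dichotomy hG hs hb.sub hb.ne hm1 𝓜 h𝓜 (fun φ hφ => hemb φ (hsub hφ))
    (fun φ hφ φ' hφ' => hag φ (hsub hφ) φ' (hsub hφ')) hdisj
  have hcaseA : (𝓜.card : ℝ) ≤ Real.exp 2 * ((n : ℝ) ^ C.card * q ^ (tch F K C).card) →
      ((S.image (proj K)).card : ℝ) ≤
        ((n : ℝ) ^ C.card * q ^ (tch F K C).card) * Λ ^ (tch F K C).card := by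
    intro ht
    exact hK.trans (hov.trans (num_case_A hm1 hbm hx0 hR1 hT1 (by norm_num) hb₁ ht0 hΛ ht))
  rcases hdich with ht | ht
  · have hatt : ((att F K C).card : ℝ) ≤ ((tch F K C).card : ℝ) := by
      exact_mod_cast att_card_le hb.sub
    have ht' : (𝓜.card : ℝ) ≤ ((tch F K C).card : ℝ) * l :=
      ht.trans (mul_le_mul_of_nonneg_right hatt hl0)
    by_cases hmb : b₁ ≤ (tch F K C).card
    · exact hK.trans (hov.trans (num_case_B hm1 hbm hx0 hxm hR1 hT1 (by norm_num) hb₁ hmb hl0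
        hpar.lT ht0 hΛ ht'))
    · push Not at hmb
      by_cases hx : ((tch F K C).card : ℝ) * l ≤ (n : ℝ) ^ C.card * q ^ (tch F K C).card
      · apply hcaseA
        have he2 : (1 : ℝ) ≤ Real.exp 2 := Real.one_le_exp (by norm_num)
        nlinarith
      · push Not at hx
        exact hK.trans (block_case_C hG hs hb h2 hpar hmb S 𝓜 hsub h𝓜 hemb hag hdisj hcov ht hx)
  · exact hcaseA ht

end Vale.Agent.Lib.P064T
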