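import Vale.Agent.Lib.P064T.BlockT
import Vale.Agent.Lib.P064.Inj

/-!
Part G: the chain of blocks and the embedding bound, for any block bound `Λ`.
-/

open Finset

namespace Vale.Agent.Lib.P064T

open Vale.Agent.Lib.P064 Vale.Agent.Lib.P064E Vale.Agent.Lib.P064U
open scoped Classical

variable {V : Type} [Fintype V] {H : SimpleGraph V} {n : ℕ} {q l lam : ℝ}

/-- `tch F K K` has as many edges as `eIn F K`. -/
private lemma card_tch_self {α : Type} [Fintype α] (F : SimpleGraph α) (K : Finset α) :
    (tch F K K).card = (eIn F K).card := by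
  have h := eIn_union_card (F := F) (E := (∅ : Finset α)) (C := K)
  rw [Finset.empty_union, eIn_empty, Finset.card_empty, zero_add] at h
  unfold tch
  rw [Finset.sdiff_self]
  exact h.symm

/-- `sv K ≥ 0` as soon as `K` has an embedding. -/
private lemma sv_self_nonneg {α : Type} [Fintype α] {F : SimpleGraph α}
    (hG : GoodDensity n q H) (hs : Std n q l lam) (K : Finset α) {φ : α → V}
    (hφ : IsEmb F H φ) : 0 ≤ sv F l lam K K := by
  classical
  set T : Finset (Sym2 V) := (eIn F K).image (Sym2.map φ) with hT
  have hTedge : ∀ e ∈ T, e ∈ H.edgeSet := by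
    intro e he
    obtain ⟨e', he', rfl⟩ := Finset.mem_image.1 he
    induction e' using Sym2.ind with
    | _ u v =>
      have h1 := (mem_eIn_pair.1 he').1
      exact hφ.2 u v h1
  have hTcard : T.card = (eIn F K).card := by
    rw [hT]
    exact Finset.card_image_of_injective _ (Sym2.map.injective hφ.1)
  have hvs : (vs T).card ≤ K.card := by
    have hsub : vs T ⊆ K.image φ := by
      intro x hx
      obtain ⟨e, he, hxe⟩ := mem_vs_iff.1 hx
      obtain ⟨e', he', rfl⟩ := Finset.mem_image.1 he
      induction e' using Sym2.ind with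
      | _ u v =>
        obtain ⟨_, hu, hv⟩ := mem_eIn_pair.1 he'
        have hx' : x = φ u ∨ x = φ v := by simpa using hxe
        rcases hx' with rfl | rfl
        · exact Finset.mem_image_of_mem _ hu
        · exact Finset.mem_image_of_mem _ hv
    exact (Finset.card_le_card hsub).trans Finset.card_image_le
  have hd := density_log hG hs T hTedge
  have hl0 : 0 ≤ l := by linarith [hs.l1]
  have h2 : ((vs T).card : ℝ) * l ≤ (K.card : ℝ) * l := by
    have : ((vs T).card : ℝ) ≤ K.card := by exact_mod_cast hvs
    exact mul_le_mul_of_nonneg_right this hl0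
  rw [hTcard] at hd
  unfold sv
  rw [card_tch_self]
  have h3 : 0 ≤ ((eIn F K).card : ℝ) := Nat.cast_nonneg _
  nlinarith

/-- The number of restrictions to `K`, by strong induction on `|K|` along minimal blocks:
`S` nonempty; `sv K ≥ 0` by `density_log` on `φ (eIn F K)`; `exists_minBlock`; `card_image_proj_step_real` with `K \ C ⊆ K` and
`BlockGoalT` on each fibre; `eIn_union_card` for `(K \ C) ∪ C = K` (`tch F K C = newE F (K \ C) C`). -/
theorem image_chainT {α : Type} [Fintype α] {F : SimpleGraph α} (hG : GoodDensity n q H)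
    (hs : Std n q l lam) {Λ : ℝ} (hΛ : 0 ≤ Λ)
    (hblock : ∀ K C : Finset α, MinBlock F l lam K C → BlockGoalT F H n q Λ K C)
    (K : Finset α) (S : Finset (α → V)) (hemb : ∀ φ ∈ S, IsEmb F H φ) :
    ((S.image (proj K)).card : ℝ) ≤
      ((n : ℝ) ^ K.card * q ^ (eIn F K).card) * Λ ^ (eIn F K).card := by
  classical
  have hn0 : (0 : ℝ) ≤ n := Nat.cast_nonneg _
  have hq0 : 0 ≤ q := hs.q0.le
  induction K using Finset.strongInduction with
  | H K ih =>
    rcases S.eq_empty_or_nonempty with rfl | ⟨φ₁, hφ₁⟩
    · simp only [Finset.image_empty, Finset.card_empty, Nat.cast_zero]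
      positivity
    rcases K.eq_empty_or_nonempty with rfl | hKne
    · have h1 : (S.image (proj (∅ : Finset α))).card ≤ 1 := by
        refine Finset.card_le_one.2 ?_
        intro a ha b hb
        obtain ⟨φ, _, rfl⟩ := Finset.mem_image.1 ha
        obtain ⟨ψ, _, rfl⟩ := Finset.mem_image.1 hb
        funext x
        simp [proj]
      rw [eIn_empty]
      simp only [Finset.card_empty, pow_zero, mul_one]
      exact_mod_cast h1
    · obtain ⟨C, hC⟩ := exists_minBlock hKne (sv_self_nonneg hG hs K (hemb φ₁ hφ₁))
      have hsubD : K \ C ⊆ K := Finset.sdiff_subset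
      have hssub : K \ C ⊂ K := Finset.sdiff_ssubset hC.sub hC.ne
      have hIH := ih (K \ C) hssub
      set B : ℝ := ((n : ℝ) ^ C.card * q ^ (tch F K C).card) * Λ ^ (tch F K C).card with hB
      have hB0 : 0 ≤ B := by positivity
      have hstep := card_image_proj_step_real S hsubD hB0 (by
        intro φ₀ _
        refine hblock K C hC (S.filter (fun φ => proj (K \ C) φ = proj (K \ C) φ₀)) ?_ ?_
        · intro φ hφ
          exact hemb φ (Finset.mem_filter.1 hφ).1
        · intro φ hφ φ' hφ' x hx
          have h1 := congrFun (Finset.mem_filter.1 hφ).2 x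
          have h2 := congrFun (Finset.mem_filter.1 hφ').2 x
          simp only [proj, hx, if_true] at h1 h2
          exact Option.some.inj (h1.trans h2.symm))
      have hcard : (eIn F K).card = (eIn F (K \ C)).card + (tch F K C).card := by
        have h := eIn_union_card (F := F) (E := K \ C) (C := C)
        rwa [Finset.sdiff_union_of_subset hC.sub] at h
      have hccard : K.card = (K \ C).card + C.card :=
        (Finset.card_sdiff_add_card_eq_card hC.sub).symm
      calc ((S.image (proj K)).card : ℝ) ≤ B * (S.image (proj (K \ C))).card := hstep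
        _ ≤ B * (((n : ℝ) ^ (K \ C).card * q ^ (eIn F (K \ C)).card) *
              Λ ^ (eIn F (K \ C)).card) := mul_le_mul_of_nonneg_left hIH hB0
        _ = ((n : ℝ) ^ K.card * q ^ (eIn F K).card) * Λ ^ (eIn F K).card := by
            rw [hcard, hB]
            conv_rhs => rw [hccard]
            rw [pow_add, pow_add, pow_add]
            ring

/-- The number of embeddings of `F`. Take `K = univ`, `S = emb F H`; `proj univ` is injective. -/
theorem emb_chainT {α : Type} [Fintype α] {F : SimpleGraph α} (hG : GoodDensity n q H)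
    (hs : Std n q l lam) {Λ : ℝ} (hΛ : 0 ≤ Λ)
    (hblock : ∀ K C : Finset α, MinBlock F l lam K C → BlockGoalT F H n q Λ K C) :
    ((emb F H).card : ℝ) ≤ ((n : ℝ) ^ Fintype.card α * q ^ (eIn F univ).card) *
      Λ ^ (eIn F univ).card := by
  have h := image_chainT hG hs hΛ hblock (univ : Finset α) (emb F H) (fun φ hφ => mem_emb.1 hφ)
  rw [Finset.card_image_of_injective _ proj_univ_injective, Finset.card_univ] at h
  exact h

/-- The embedding bound, from `emb_chainT`, `pow_le_exp_descFactorial`, `vertices_le_darts`, `darts_card_le`. -/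
theorem embBound_chainT (hG : GoodDensity n q H) (hs : Std n q l lam) {Λ : ℝ} (hΛ : 0 ≤ Λ)
    (hblock : ∀ (β : Type) [Fintype β] (G : SimpleGraph β) (K C : Finset β),
      MinBlock G l lam K C → BlockGoalT G H n q Λ K C) :
    EmbBound n H (Real.exp 2 * q * Λ) := by
  intro β _ G hiso hvn
  have hmain := emb_chainT (F := G) hG hs hΛ (hblock β G)
  refine hmain.trans ?_
  set e := (eIn G univ).card with he
  set v := Fintype.card β with hv
  have hve : v ≤ 2 * e := (vertices_le_darts hiso).trans darts_card_le
  have hnd := pow_le_exp_descFactorial hvn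
  have hq0 : 0 ≤ q := hs.q0.le
  set d : ℝ := (n.descFactorial v : ℝ) with hd
  have hd0 : 0 ≤ d := Nat.cast_nonneg _
  set E := Real.exp 1 with hE
  have hE1 : 1 ≤ E := Real.one_le_exp (by norm_num)
  have h2 : Real.exp 2 = E ^ 2 := by
    rw [hE, ← Real.exp_nat_mul]
    norm_num
  rw [h2]
  have hpow : E ^ v ≤ E ^ (2 * e) := pow_le_pow_right₀ hE1 hve
  have hE0 : 0 ≤ E := by linarith
  calc ((n : ℝ) ^ v * q ^ e) * Λ ^ e
      ≤ ((E ^ v * d) * q ^ e) * Λ ^ e := by gcongr
    _ ≤ ((E ^ (2 * e) * d) * q ^ e) * Λ ^ e := by gcongr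
    _ = (E ^ 2 * q * Λ) ^ e * d := by
        rw [pow_mul, mul_pow, mul_pow]
        ring

end Vale.Agent.Lib.P064T
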