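import Vale.Agent.Lib.P064U.ISets

/-!
Part T with exponent one half: definitions and the basic facts on matchings.
-/

open Finset

namespace Vale.Agent.Lib.P064T

open Vale.Agent.Lib.P064 Vale.Agent.Lib.P064E Vale.Agent.Lib.P064U
open scoped Classical

variable {V α : Type} [Fintype V] [Fintype α] {F : SimpleGraph α} {H : SimpleGraph V}

/-- Every nonempty `Z ⊆ Q` has a neighbour in `K` outside `Z`. -/
def HasExit (F : SimpleGraph α) (K Q : Finset α) : Prop :=
  ∀ Z ⊆ Q, Z.Nonempty → ∃ z ∈ Z, ∃ w ∈ K \ Z, F.Adj z w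

/-- A matching of `F[Q]`. -/
structure IsMatching (F : SimpleGraph α) (Q : Finset α) (M : Finset (Sym2 α)) : Prop where
  sub : M ⊆ eIn F Q
  disj : ∀ e ∈ M, ∀ e' ∈ M, e ≠ e' → Disjoint e.toFinset e'.toFinset

/-- The number of pieces of `Q` for the matching `M`: its edges and the vertices it misses. -/
noncomputable def pieces (Q : Finset α) (M : Finset (Sym2 α)) : ℕ := M.card + (Q \ vs M).card

/-- The level bound: for `Q ⊆ C` with an exit and `|Q| ≤ s`, at most `R ^ e_Q exp (c e_Q)` restrictions. -/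
def LevelH (F : SimpleGraph α) (H : SimpleGraph V) (l : ℝ) (K C : Finset α) (s : ℕ) (R c : ℝ) : Prop :=
  ∀ Q ⊆ C, Q.Nonempty → Q.card ≤ s → HasExit F K Q →
    ∀ (S : Finset (α → V)) (U : Finset (Sym2 V)),
      (∀ φ ∈ S, IsEmb F H φ) →
      (∀ φ ∈ S, ∀ φ' ∈ S, ∀ x ∈ att F K Q, φ x = φ' x) →
      (∀ e ∈ U, e ∈ H.edgeSet) →
      (∀ φ ∈ S, tchIm F K Q φ ⊆ U) →
      (U.card : ℝ) ≤ 3 * ((tch F K Q).card : ℝ) * l →
      ((S.image (proj Q)).card : ℝ) ≤
        R ^ (tch F K Q).card * Real.exp (c * ((tch F K Q).card : ℝ))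

/-- The bound to be multiplied along the chain: for a family agreeing on `K \ C`. -/
def BlockGoalT (F : SimpleGraph α) (H : SimpleGraph V) (n : ℕ) (q Λ : ℝ) (K C : Finset α) : Prop :=
  ∀ S : Finset (α → V), (∀ φ ∈ S, IsEmb F H φ) → (∀ φ ∈ S, ∀ φ' ∈ S, ∀ x ∈ K \ C, φ x = φ' x) →
    ((S.image (proj K)).card : ℝ) ≤ ((n : ℝ) ^ C.card * q ^ (tch F K C).card) * Λ ^ (tch F K C).card

lemma HasExit.mono {K Q P : Finset α} (h : HasExit F K Q) (hP : P ⊆ Q) : HasExit F K P :=
  fun Z hZ hne => h Z (hZ.trans hP) hne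

lemma IsMatching.vs_subset {Q : Finset α} {M : Finset (Sym2 α)} (h : IsMatching F Q M) :
    vs M ⊆ Q := by
  intro x hx
  obtain ⟨e, he, hxe⟩ := mem_vs_iff.1 hx
  have he' := h.sub he
  induction e using Sym2.ind with
  | _ u v =>
    have := mem_eIn_pair.1 he'
    have hx' : x = u ∨ x = v := by simpa using hxe
    rcases hx' with rfl | rfl
    · exact this.2.1
    · exact this.2.2

lemma IsMatching.card_vs {Q : Finset α} {M : Finset (Sym2 α)} (h : IsMatching F Q M) :
    (vs M).card = 2 * M.card := by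
  unfold vs
  rw [Finset.card_biUnion (fun e he e' he' hne => h.disj e he e' he' hne)]
  have h2 : ∀ e ∈ M, e.toFinset.card = 2 := by
    intro e he
    have he' := h.sub he
    induction e using Sym2.ind with
    | _ u v =>
      have hadj := (mem_eIn_pair.1 he').1
      have hne : u ≠ v := hadj.ne
      have h3 : (s(u, v)).toFinset = {u, v} := by
        ext x
        simp
      rw [h3, Finset.card_pair hne]
  rw [Finset.sum_congr rfl h2]
  simp [mul_comm]

/-- `|Q| = 2 |M| + |W|`. -/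
lemma IsMatching.card_eq {Q : Finset α} {M : Finset (Sym2 α)} (h : IsMatching F Q M) :
    Q.card = 2 * M.card + (Q \ vs M).card := by
  rw [← h.card_vs]
  have := Finset.card_sdiff_add_card_eq_card h.vs_subset
  omega

/-- `|Q| ≤ 2 g`. -/
lemma IsMatching.card_le_two_pieces {Q : Finset α} {M : Finset (Sym2 α)} (h : IsMatching F Q M) :
    Q.card ≤ 2 * pieces Q M := by
  have := h.card_eq
  unfold pieces
  omega

/-- Edges of `M` lie in `tch F K Q`. -/
lemma IsMatching.subset_tch {K Q : Finset α} {M : Finset (Sym2 α)} (h : IsMatching F Q M)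
    (hQK : Q ⊆ K) : M ⊆ tch F K Q := by
  intro e he
  have he' := h.sub he
  induction e using Sym2.ind with
  | _ u v =>
    obtain ⟨h1, h2, h3⟩ := mem_eIn_pair.1 he'
    exact (mem_tch_pair hQK).2 ⟨h1, hQK h2, hQK h3, Or.inl h2⟩

end Vale.Agent.Lib.P064T
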