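import Vale.Agent.Lib.P064T.Defs

/-!
Part X1: exits of subsets of a minimal block, and vertices of degree at least two.
-/

open Finset

namespace Vale.Agent.Lib.P064T

open Vale.Agent.Lib.P064 Vale.Agent.Lib.P064E Vale.Agent.Lib.P064U
open scoped Classical

variable {α : Type} [Fintype α] {F : SimpleGraph α} {l lam : ℝ} {K C Q : Finset α}

/-- A proper subset of a minimal block has an exit: otherwise the edges touching `C` split over
`Z` and `C \ Z`, and `sv C ≤ sv Z + sv (C \ Z) < 0`. -/
theorem hasExit_of_ne (hb : MinBlock F l lam K C) (hlam : 1 ≤ lam) (hQ : Q ⊆ C) (hne : Q ≠ C) :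
    HasExit F K Q := by
  intro Z hZ hZne
  by_contra hcon
  push Not at hcon
  have hZC : Z ⊆ C := hZ.trans hQ
  have hZK : Z ⊆ K := hZC.trans hb.sub
  have hZneC : Z ≠ C := by
    intro h
    apply hne
    exact Finset.Subset.antisymm hQ (h ▸ hZ)
  have hCK := hb.sub
  set Z' := C \ Z with hZ'
  have hZ'C : Z' ⊆ C := Finset.sdiff_subset
  have hZ'K : Z' ⊆ K := hZ'C.trans hCK
  have hZ'ne : Z'.Nonempty := by
    by_contra h
    rw [Finset.not_nonempty_iff_eq_empty, hZ', Finset.sdiff_eq_empty_iff_subset] at h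
    exact hZneC (Finset.Subset.antisymm hZC h)
  have hZ'neC : Z' ≠ C := by
    intro h
    obtain ⟨z, hz⟩ := hZne
    have hz' : z ∈ Z' := h ▸ hZC hz
    exact (Finset.mem_sdiff.1 hz').2 hz
  have h1 := hb.neg Z hZC hZne hZneC
  have h2 := hb.neg Z' hZ'C hZ'ne hZ'neC
  -- every edge touching `Z` has both ends in `Z`
  have hinside : ∀ u v, F.Adj u v → u ∈ K → v ∈ K → u ∈ Z → v ∈ Z := by
    intro u v huv _ hv hu
    by_contra hvZ
    exact hcon u hu v (Finset.mem_sdiff.2 ⟨hv, hvZ⟩) huv
  have hdisj : Disjoint (tch F K Z) (tch F K Z') := by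
    rw [Finset.disjoint_left]
    intro e he he'
    induction e using Sym2.ind with
    | _ u v =>
      obtain ⟨a1, a2, a3, a4⟩ := (mem_tch_pair hZK).1 he
      obtain ⟨_, _, _, b4⟩ := (mem_tch_pair hZ'K).1 he'
      have huZ : u ∈ Z ∧ v ∈ Z := by
        rcases a4 with h | h
        · exact ⟨h, hinside u v a1 a2 a3 h⟩
        · exact ⟨hinside v u a1.symm a3 a2 h, h⟩
      rcases b4 with h | h
      · exact (Finset.mem_sdiff.1 h).2 huZ.1
      · exact (Finset.mem_sdiff.1 h).2 huZ.2
  have hcard : (tch F K Z).card + (tch F K Z').card ≤ (tch F K C).card := by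
    rw [← Finset.card_union_of_disjoint hdisj]
    apply Finset.card_le_card
    intro e he
    rcases Finset.mem_union.1 he with h | h
    · exact tch_mono hZC hCK h
    · exact tch_mono hZ'C hCK h
  have hcard' : ((tch F K Z).card : ℝ) + ((tch F K Z').card : ℝ) ≤ ((tch F K C).card : ℝ) := by
    exact_mod_cast hcard
  have hCcard : (C.card : ℝ) = (Z.card : ℝ) + (Z'.card : ℝ) := by
    have := Finset.card_sdiff_add_card_eq_card hZC
    have h3 : Z'.card + Z.card = C.card := this
    rw [← h3]
    push_cast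
    ring
  have h3 := hb.nonneg
  unfold sv at h1 h2 h3
  rw [hCcard] at h3
  have h4 : 0 ≤ lam - 1 := by linarith
  nlinarith [mul_le_mul_of_nonneg_right hcard' h4]

/-- A minimal block with a nonempty attachment has an exit. -/
theorem hasExit_self (hb : MinBlock F l lam K C) (hlam : 1 ≤ lam) (h : (att F K C).Nonempty) :
    HasExit F K C := by
  intro Z hZ hZne
  by_cases hEq : Z = C
  · subst hEq
    obtain ⟨w, hw⟩ := h
    obtain ⟨h1, h2, c, hc, hadj⟩ := mem_att.1 hw
    exact ⟨c, hc, w, Finset.mem_sdiff.2 ⟨h1, h2⟩, hadj⟩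
  · exact hasExit_of_ne hb hlam hZ hEq Z (Finset.Subset.refl _) hZne

/-- In a block with at least two vertices all degrees are at least two:
`l < d (lam - 1)` and `lam ≤ l`. -/
theorem two_le_deg (hb : MinBlock F l lam K C) (h2 : 2 ≤ C.card) (hl : 1 ≤ l) (hlam : lam ≤ l)
    {y : α} (hy : y ∈ C) : 2 ≤ (tch F K {y}).card := by
  have hsub : ({y} : Finset α) ⊆ C := by simpa using hy
  have hne : ({y} : Finset α) ≠ C := by
    intro h
    rw [← h] at h2
    simp at h2
  have h1 := hb.neg {y} hsub (Finset.singleton_nonempty y) hne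
  unfold sv at h1
  rw [Finset.card_singleton] at h1
  by_contra hd
  have hd' : (tch F K {y}).card = 0 ∨ (tch F K {y}).card = 1 := by omega
  rcases hd' with h0 | h0
  · rw [h0] at h1
    norm_num at h1
    linarith
  · rw [h0] at h1
    norm_num at h1
    linarith

end Vale.Agent.Lib.P064T
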