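import Vale.Agent.Lib.P064T.EmbT
import Vale.Agent.Lib.P064.SharpFinal

/-!
Part H3: the thresholds: per-edge loss `(log n)^(1/2 + ε)`, plus the pendant term `log n / n`.
-/

open Finset

namespace Vale.Agent.Lib.P064T

open Vale.Agent.Lib.P064 Vale.Agent.Lib.P064E Vale.Agent.Lib.P064U
open scoped Classical

private lemma good_mono' {V : Type} {H : SimpleGraph V} {n : ℕ} {q q' : ℝ} (hG : GoodDensity n q H)
    (hq0 : 0 < q) (hqq : q ≤ q') : GoodDensity n q' H := by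
  intro β _ U hc hne
  have h1 := hG β U hc hne
  refine h1.trans ?_
  apply mul_le_mul_of_nonneg_left _ (Nat.cast_nonneg _)
  exact pow_le_pow_left₀ hq0.le hqq _

/-- The real numbers: `(1 + l)^r₀` against `l^r` and `l`. -/
private lemma rpow_facts {l ε ε₀ : ℝ} (hl : 1 ≤ l) (h0 : 0 < ε₀) (h1 : ε₀ ≤ ε) (h2 : ε₀ ≤ 1 / 2) :
    (1 + l) ^ (1 / 2 + ε₀) ≤ 2 * l ^ (1 / 2 + ε) ∧ (1 + l) ^ (1 / 2 + ε₀) ≤ 2 * l := by
  have hl0 : 0 ≤ l := by linarith
  have hr1 : 1 / 2 + ε₀ ≤ 1 := by linarith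
  have hr0 : 0 ≤ 1 / 2 + ε₀ := by linarith
  constructor
  · calc (1 + l) ^ (1 / 2 + ε₀) ≤ (2 * l) ^ (1 / 2 + ε₀) :=
        Real.rpow_le_rpow (by linarith) (by linarith) hr0
      _ = (2 : ℝ) ^ (1 / 2 + ε₀) * l ^ (1 / 2 + ε₀) := Real.mul_rpow (by norm_num) hl0
      _ ≤ 2 * l ^ (1 / 2 + ε) := by
        have h3 : (2 : ℝ) ^ (1 / 2 + ε₀) ≤ 2 := by
          calc (2 : ℝ) ^ (1 / 2 + ε₀) ≤ (2 : ℝ) ^ (1 : ℝ) :=
                Real.rpow_le_rpow_of_exponent_le (by norm_num) hr1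
            _ = 2 := Real.rpow_one 2
        have h4 : l ^ (1 / 2 + ε₀) ≤ l ^ (1 / 2 + ε) :=
          Real.rpow_le_rpow_of_exponent_le hl (by linarith)
        exact mul_le_mul h3 h4 (by positivity) (by norm_num)
  · calc (1 + l) ^ (1 / 2 + ε₀) ≤ (1 + l) ^ (1 : ℝ) :=
        Real.rpow_le_rpow_of_exponent_le (by linarith) hr1
      _ = 1 + l := Real.rpow_one _
      _ ≤ 2 * l := by linarith

/-- The generic reduction: if every admissible `q` gives an embedding bound `Th q`, then either `p_E` is of order one, or some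
`q = max (2 p, 1 / n)`, with `p` in the `p_E` set near `p_E`, has `p̃_E ≤ Th q` and `p_c ≤ 512 log n Th q`. -/
theorem thresholds_of_emb {n : ℕ} (hn : 3 ≤ n) {V : Type} [Fintype V] {H : SimpleGraph V}
    (hV : Fintype.card V ≤ n) (hH : H ≠ ⊥) (Th : ℝ → ℝ)
    (hemb : ∀ q lam : ℝ, Std n q (Real.log n) lam → GoodDensity n q H →
      0 < Th q ∧ EmbBound n H (Th q)) :
    1 ≤ 4 * Real.exp 1 * pE n H ∨
      ∃ q : ℝ, 0 < q ∧ 1 / (n : ℝ) ≤ q ∧ q ≤ 4 * pE n H + 1 / (n : ℝ) ∧ q ≤ Real.exp (-1) ∧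
        Std n q (Real.log n) (- Real.log q) ∧ GoodDensity n q H ∧
        pTilde n H ≤ Th q ∧ pc n H ≤ 512 * Real.log n * Th q := by
  have hn3 : (3 : ℝ) ≤ n := by exact_mod_cast hn
  have hn0 : (0 : ℝ) < n := by linarith
  have hn2 : 2 ≤ n := by omega
  have he0 : 0 < Real.exp 1 := Real.exp_pos 1
  have hl1 : 1 ≤ Real.log n := by
    rw [Real.le_log_iff_exp_le hn0]
    have := Real.exp_one_lt_d9
    linarith
  obtain ⟨ι⟩ : Nonempty (V ↪ Fin n) :=
    Function.Embedding.nonempty_of_card_le (by simpa using hV)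
  have hE0 := pE_pos hn2 hV hH
  have hlt : pE n H < 2 * pE n H := by linarith
  obtain ⟨p, ⟨h0, h1, hp⟩, hp2⟩ := exists_lt_of_csInf_lt (pE_set_nonempty (H := H) ι) hlt
  have hpE : pE n H ≤ p := csInf_le ⟨0, fun _ hy => hy.1⟩ ⟨h0, h1, hp⟩
  have hp0 : 0 < p := by linarith
  obtain ⟨q, hq⟩ : ∃ q, q = max (2 * p) (1 / (n : ℝ)) := ⟨_, rfl⟩
  have hq2 : 2 * p ≤ q := by
    rw [hq]
    exact le_max_left _ _
  have hqn : 1 / (n : ℝ) ≤ q := by
    rw [hq]
    exact le_max_right _ _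
  have hn1inv : 0 < 1 / (n : ℝ) := by positivity
  have hq0 : 0 < q := by linarith
  have hqle : q ≤ 4 * pE n H + 1 / (n : ℝ) := by
    rw [hq]
    apply max_le <;> linarith
  by_cases hqe : Real.exp (-1) < q
  · -- `p_E` is large
    left
    have h3 : (1 : ℝ) / n < Real.exp (-1) := by
      have h4 : Real.exp (-1) * Real.exp 1 = 1 := by
        rw [← Real.exp_add]
        simp
      have h5 := Real.exp_one_lt_d9
      have h6 : 0 < Real.exp (-1) := Real.exp_pos _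
      rw [div_lt_iff₀ hn0]
      have h7 : Real.exp (-1) * Real.exp 1 < Real.exp (-1) * n :=
        mul_lt_mul_of_pos_left (by linarith) h6
      linarith
    have h4 : Real.exp (-1) < 2 * p := by
      rw [hq] at hqe
      rcases lt_max_iff.1 hqe with h | h
      · exact h
      · linarith
    have h5 : Real.exp (-1) * Real.exp 1 = 1 := by
      rw [← Real.exp_add]
      simp
    have h7 : Real.exp (-1) * Real.exp 1 ≤ (4 * pE n H) * Real.exp 1 :=
      mul_le_mul_of_nonneg_right (by linarith) he0.le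
    have h8 : (4 * pE n H) * Real.exp 1 = 4 * Real.exp 1 * pE n H := by ring
    linarith
  · right
    push Not at hqe
    have hG0 : GoodDensity n (2 * p) H := good_of_subgraphs h0 h1 hp
    have hG : GoodDensity n q H := good_mono' hG0 (by positivity) hq2
    have hStd : Std n q (Real.log n) (- Real.log q) := by
      refine ⟨by omega, rfl, rfl, hq0, hl1, ?_, ?_⟩
      · have h3 := Real.log_le_log hq0 hqe
        rw [Real.log_exp] at h3
        linarith
      · have h3 := Real.log_le_log hn1inv hqn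
        rw [one_div, Real.log_inv] at h3
        linarith
    obtain ⟨hΘ0, hE⟩ := hemb q (- Real.log q) hStd hG
    exact ⟨q, hq0, hqn, hqle, hqe, hStd, hG, pTilde_le_of_embBound hV hΘ0 hE,
      pc_le_of_embBound hn2 hV hH hΘ0 hE⟩

/-- The thresholds. `q = max (2 p, 1 / n)` with `p` in the `p_E` set near `p_E`, as in `sharp_core`; for `q > 1 / e` trivial. -/
theorem thresholds_T (ε : ℝ) (hε : 0 < ε) :
    ∃ C : ℝ, 0 < C ∧ ∀ n : ℕ, 3 ≤ n → ∀ (V : Type) [Fintype V] (H : SimpleGraph V),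
      Fintype.card V ≤ n → H ≠ ⊥ →
      pTilde n H ≤ C * (pE n H * (Real.log n) ^ (1 / 2 + ε) + Real.log n / n) ∧
      pc n H ≤ C * Real.log n * (pE n H * (Real.log n) ^ (1 / 2 + ε) + Real.log n / n) := by
  obtain ⟨ε₀, hε₀⟩ : ∃ ε₀, ε₀ = min ε (1 / 2) := ⟨_, rfl⟩
  have hε₀0 : 0 < ε₀ := by
    rw [hε₀]
    exact lt_min hε (by norm_num)
  have hε₀1 : ε₀ ≤ ε := by
    rw [hε₀]
    exact min_le_left _ _
  have hε₀2 : ε₀ ≤ 1 / 2 := by
    rw [hε₀]
    exact min_le_right _ _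
  obtain ⟨C₁, hC₁, hemb⟩ := embBound_T ε₀ hε₀0
  have he0 : 0 < Real.exp 1 := Real.exp_pos 1
  refine ⟨4096 * C₁ + 4 * Real.exp 1, by positivity, ?_⟩
  intro n hn V _ H hV hH
  have hn3 : (3 : ℝ) ≤ n := by exact_mod_cast hn
  have hn0 : (0 : ℝ) < n := by linarith
  have hn2 : 2 ≤ n := by omega
  have hE0 := pE_pos hn2 hV hH
  obtain ⟨l, hl⟩ : ∃ l, l = Real.log n := ⟨_, rfl⟩
  rw [← hl]
  have hl1 : 1 ≤ l := by
    rw [hl, Real.le_log_iff_exp_le hn0]
    have := Real.exp_one_lt_d9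
    linarith
  have hl0 : 0 < l := by linarith
  obtain ⟨A, hA⟩ : ∃ A, A = (1 + l) ^ (1 / 2 + ε₀) := ⟨_, rfl⟩
  have hA0 : 0 < A := by
    rw [hA]
    positivity
  have hn1inv : 0 < 1 / (n : ℝ) := by positivity
  have hln : 0 < l / (n : ℝ) := by positivity
  obtain ⟨r, hr⟩ : ∃ r, r = l ^ (1 / 2 + ε) := ⟨_, rfl⟩
  rw [← hr]
  have hr1 : 1 ≤ r := by
    rw [hr]
    exact Real.one_le_rpow hl1 (by linarith)
  obtain ⟨S, hS⟩ : ∃ S, S = pE n H * r + l / (n : ℝ) := ⟨_, rfl⟩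
  rw [← hS]
  have hS0 : 0 < S := by
    rw [hS]
    positivity
  have hSE : pE n H ≤ S := by
    have : pE n H * 1 ≤ pE n H * r := mul_le_mul_of_nonneg_left hr1 hE0.le
    rw [hS]
    linarith
  have hlS : S ≤ l * S := le_mul_of_one_le_left hS0.le hl1
  have hCS : (4096 * C₁ + 4 * Real.exp 1) * S = 4096 * (C₁ * S) + 4 * Real.exp 1 * S := by ring
  have hCSl : (4096 * C₁ + 4 * Real.exp 1) * l * S =
      4096 * (C₁ * (l * S)) + 4 * Real.exp 1 * (l * S) := by ring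
  have hC0 : 0 ≤ C₁ * S := by positivity
  have hC1 : 0 ≤ C₁ * (l * S) := by positivity
  have he1 : 0 ≤ 4 * Real.exp 1 * S := by positivity
  have he2 : 0 ≤ 4 * Real.exp 1 * (l * S) := by positivity
  rcases thresholds_of_emb hn hV hH (fun q => C₁ * (q * A + l / (n : ℝ))) (by
      intro q lam hs hG
      have hq0 := hs.q0
      have hE := hemb n q (Real.log n) lam V H hs hG hV
      rw [← hl, ← hA] at hE
      exact ⟨by positivity, hE⟩) with h6 | ⟨q, hq0, hqn, hqle, hqe, -, -, h7, h8⟩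
  · have h7 : 1 ≤ 4 * Real.exp 1 * S := by
      have : 4 * Real.exp 1 * pE n H ≤ 4 * Real.exp 1 * S :=
        mul_le_mul_of_nonneg_left hSE (by positivity)
      linarith
    constructor
    · have := pTilde_le_one (n := n) (H := H) hV
      rw [hCS]
      linarith
    · have h8 := pc_le_one (n := n) (H := H) hV
      have h9 : 4 * Real.exp 1 * S ≤ 4 * Real.exp 1 * (l * S) :=
        mul_le_mul_of_nonneg_left hlS (by positivity)
      rw [hCSl]
      linarith
  · rw [← hl] at h8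
    obtain ⟨hA1, hA2⟩ := rpow_facts hl1 hε₀0 hε₀1 hε₀2
    rw [← hA, ← hr] at hA1
    rw [← hA] at hA2
    have hmain : q * A + l / (n : ℝ) ≤ 8 * S := by
      have h3 : q * A ≤ (4 * pE n H + 1 / (n : ℝ)) * A :=
        mul_le_mul_of_nonneg_right hqle hA0.le
      have h4 : pE n H * A ≤ pE n H * (2 * r) := mul_le_mul_of_nonneg_left hA1 hE0.le
      have h5 : 1 / (n : ℝ) * A ≤ 1 / (n : ℝ) * (2 * l) :=
        mul_le_mul_of_nonneg_left hA2 hn1inv.le
      have h6 : 1 / (n : ℝ) * (2 * l) = 2 * (l / (n : ℝ)) := by ring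
      have h6a : (4 * pE n H + 1 / (n : ℝ)) * A = 4 * (pE n H * A) + 1 / (n : ℝ) * A := by ring
      have h6b : pE n H * (2 * r) = 2 * (pE n H * r) := by ring
      rw [hS]
      linarith
    have hΘ : C₁ * (q * A + l / (n : ℝ)) ≤ C₁ * (8 * S) :=
      mul_le_mul_of_nonneg_left hmain hC₁.le
    have hs8 : C₁ * (8 * S) = 8 * (C₁ * S) := by ring
    constructor
    · rw [hCS]
      linarith
    · have h9 : 512 * l * (C₁ * (q * A + l / (n : ℝ))) ≤ 512 * l * (C₁ * (8 * S)) :=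
        mul_le_mul_of_nonneg_left hΘ (by positivity)
      have h10 : 512 * l * (C₁ * (8 * S)) = 4096 * (C₁ * (l * S)) := by ring
      rw [hCSl]
      linarith

end Vale.Agent.Lib.P064T
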