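import Vale.Agent.Lib.P064T.LevelTop
import Vale.Agent.Lib.P064E.Cover

/-!
Part B1: maximal families and the overlap count for one block.
-/

open Finset

namespace Vale.Agent.Lib.P064T

open Vale.Agent.Lib.P064 Vale.Agent.Lib.P064E Vale.Agent.Lib.P064U
open scoped Classical

variable {V α : Type} [Fintype V] [Fintype α] {F : SimpleGraph α} {H : SimpleGraph V} {n : ℕ}
  {q l lam : ℝ} {K C : Finset α}

/-- A maximal subfamily pairwise disjoint on `C`. -/
lemma exists_max_family (hC : C.Nonempty) (S : Finset (α → V)) (hS : S.Nonempty) :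
    ∃ 𝓜 ⊆ S, 𝓜.Nonempty ∧
      (∀ φ ∈ 𝓜, ∀ φ' ∈ 𝓜, φ ≠ φ' → ∀ x ∈ C, ∀ y ∈ C, φ x ≠ φ' y) ∧
      (∀ φ ∈ S, ∃ x ∈ C, ∃ φ' ∈ 𝓜, ∃ y ∈ C, φ x = φ' y) :=
  Vale.Agent.Lib.P064.exists_max_family S hS hC

/-- One pair `(v, v')`: the lifts with `φ v = φ₁ v'`. -/
lemma overlap_pair (hG : GoodDensity n q H) (hs : Std n q l lam) (hV : Fintype.card V ≤ n)
    (hb : MinBlock F l lam K C) (h2 : 2 ≤ C.card) {R c : ℝ} (hR1 : 1 ≤ R) (hc : 0 ≤ c)
    (hlev : LevelH F H l K C n R c)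
    (S : Finset (α → V)) (hemb : ∀ φ ∈ S, IsEmb F H φ)
    (hag : ∀ φ ∈ S, ∀ φ' ∈ S, ∀ x ∈ K \ C, φ x = φ' x) (φ₁ : α → V) {v v' : α} (hv : v ∈ C) :
    (((S.filter fun φ => φ v = φ₁ v').image (proj C)).card : ℝ) ≤
      R ^ (tch F K C).card * Real.exp (c * ((tch F K C).card : ℝ)) := by
  have hCK : C ⊆ K := hb.sub
  have hpos : (0 : ℝ) ≤ R ^ (tch F K C).card * Real.exp (c * ((tch F K C).card : ℝ)) := by
    have : (0 : ℝ) < R := by linarith
    positivity
  set S' : Finset (α → V) := S.filter fun φ => φ v = φ₁ v' with hS'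
  rcases S'.eq_empty_or_nonempty with hE | ⟨φ₀, hφ₀⟩
  · rw [hE]
    simpa using hpos
  set P : Finset α := C.erase v with hP
  have hPC : P ⊆ C := Finset.erase_subset _ _
  have hPK : P ⊆ K := hPC.trans hCK
  have hPne : P.Nonempty := by
    rw [← Finset.card_pos, hP, Finset.card_erase_of_mem hv]
    omega
  have hPneC : P ≠ C := by
    intro h
    have : v ∈ P := h ▸ hv
    exact (Finset.mem_erase.1 this).1 rfl
  have hS'sub : ∀ φ ∈ S', φ ∈ S := fun φ hφ => (Finset.mem_filter.1 hφ).1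
  have hS'eq : ∀ φ ∈ S', φ v = φ₁ v' := fun φ hφ => (Finset.mem_filter.1 hφ).2
  have hemb' : ∀ φ ∈ S', IsEmb F H φ := fun φ hφ => hemb φ (hS'sub φ hφ)
  have hagP : ∀ φ ∈ S', ∀ φ' ∈ S', ∀ x ∈ att F K P, φ x = φ' x := by
    intro φ hφ φ' hφ' x hx
    obtain ⟨hxK, hxP, _⟩ := mem_att.1 hx
    by_cases hxC : x ∈ C
    · have hxv : x = v := by
        by_contra hne
        exact hxP (Finset.mem_erase.2 ⟨hne, hxC⟩)
      rw [hxv, hS'eq φ hφ, hS'eq φ' hφ']
    · exact hag φ (hS'sub φ hφ) φ' (hS'sub φ' hφ') x (Finset.mem_sdiff.2 ⟨hxK, hxC⟩)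
  have hexit : HasExit F K P := hasExit_of_ne hb hs.lam1 hPC hPneC
  have hcardV : C.card ≤ Fintype.card V := by
    have hinj : Set.InjOn φ₀ (C : Set α) :=
      (hemb' φ₀ hφ₀).1.injOn
    have := Finset.card_le_card_of_injOn φ₀ (s := C) (t := Finset.univ)
      (fun _ _ => by simp) hinj
    simpa using this
  have hPn : P.card ≤ n := (Finset.card_le_card hPC).trans (hcardV.trans hV)
  set U : Finset (Sym2 V) := S'.biUnion (tchIm F K P) with hU
  have hUedge : ∀ e ∈ U, e ∈ H.edgeSet := by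
    intro e he
    obtain ⟨φ, hφ, heφ⟩ := Finset.mem_biUnion.1 he
    exact tchIm_edge (hemb' φ hφ) hPK heφ
  have hUsub : ∀ φ ∈ S', tchIm F K P φ ⊆ U := fun φ hφ =>
    Finset.subset_biUnion_of_mem (tchIm F K P) hφ
  have hl : (0 : ℝ) ≤ l := by linarith [hs.l1]
  have hUcard : (U.card : ℝ) ≤ 3 * ((tch F K P).card : ℝ) * l := by
    have h1 := local_union hG hs hb hPC hPne hPneC S' hemb' hagP
    have h3 : (0 : ℝ) ≤ ((tch F K P).card : ℝ) * l := by positivity
    calc (U.card : ℝ) ≤ ((tch F K P).card : ℝ) * l := h1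
      _ ≤ 3 * ((tch F K P).card : ℝ) * l := by nlinarith
  have hmain := hlev P hPC hPne hPn hexit S' U hemb' hagP hUedge hUsub hUcard
  have hfac : (S'.image (proj C)).card ≤ (S'.image (proj P)).card := by
    refine card_image_le_of_factor S' (proj C) (proj P) _ ?_ ?_
    · intro φ hφ φ' hφ' h
      funext x
      unfold proj
      by_cases hx : x ∈ C
      · rw [if_pos hx, if_pos hx]
        by_cases hxv : x = v
        · rw [hxv, hS'eq φ hφ, hS'eq φ' hφ']
        · rw [proj_eq_apply (Finset.mem_erase.2 ⟨hxv, hx⟩) h]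
      · rw [if_neg hx, if_neg hx]
    · intro φ hφ
      exact Finset.mem_image_of_mem _ hφ
  have hfac' : ((S'.image (proj C)).card : ℝ) ≤ ((S'.image (proj P)).card : ℝ) := by
    exact_mod_cast hfac
  have hle : (tch F K P).card ≤ (tch F K C).card :=
    Finset.card_le_card (tch_mono hPC hCK)
  have hle' : ((tch F K P).card : ℝ) ≤ ((tch F K C).card : ℝ) := by exact_mod_cast hle
  have h3 : R ^ (tch F K P).card ≤ R ^ (tch F K C).card := pow_le_pow_right₀ hR1 hle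
  have h4 : Real.exp (c * ((tch F K P).card : ℝ)) ≤ Real.exp (c * ((tch F K C).card : ℝ)) :=
    Real.exp_le_exp.2 (mul_le_mul_of_nonneg_left hle' hc)
  calc ((S'.image (proj C)).card : ℝ) ≤ ((S'.image (proj P)).card : ℝ) := hfac'
    _ ≤ R ^ (tch F K P).card * Real.exp (c * ((tch F K P).card : ℝ)) := hmain
    _ ≤ R ^ (tch F K C).card * Real.exp (c * ((tch F K C).card : ℝ)) := by
        have h5 : (0 : ℝ) ≤ Real.exp (c * ((tch F K P).card : ℝ)) := (Real.exp_pos _).le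
        have h6 : (0 : ℝ) ≤ R ^ (tch F K C).card := by
          have : (0 : ℝ) < R := by linarith
          positivity
        exact mul_le_mul h3 h4 h5 h6

/-- The lifts overlapping a fixed `φ₁` on `C`: fix `v, v' ∈ C` (at most `b^2` pairs) with `φ v = φ₁ v'`.
Then `P = C \ {v}` is a proper nonempty part, the lifts agree on `att F K P ⊆ (K \ C) ∪ {v}`, `local_union` bounds
their edges, `hasExit_of_ne` gives the exit, and the level bound for `P` applies; `e_P ≤ m`. -/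
theorem overlap_bound (hG : GoodDensity n q H) (hs : Std n q l lam) (hV : Fintype.card V ≤ n)
    (hb : MinBlock F l lam K C) (h2 : 2 ≤ C.card) {R c : ℝ} (hR1 : 1 ≤ R) (hc : 0 ≤ c)
    (hlev : LevelH F H l K C n R c)
    (S : Finset (α → V)) (hemb : ∀ φ ∈ S, IsEmb F H φ)
    (hag : ∀ φ ∈ S, ∀ φ' ∈ S, ∀ x ∈ K \ C, φ x = φ' x) (φ₁ : α → V) :
    (((S.filter fun φ => ∃ x ∈ C, ∃ y ∈ C, φ x = φ₁ y).image (proj C)).card : ℝ) ≤
      (C.card : ℝ) ^ 2 * (R ^ (tch F K C).card * Real.exp (c * ((tch F K C).card : ℝ))) := by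
  set N : ℝ := R ^ (tch F K C).card * Real.exp (c * ((tch F K C).card : ℝ)) with hN
  have hsub : (S.filter fun φ => ∃ x ∈ C, ∃ y ∈ C, φ x = φ₁ y).image (proj C) ⊆
      (C ×ˢ C).biUnion (fun d : α × α => (S.filter fun φ => φ d.1 = φ₁ d.2).image (proj C)) := by
    intro ψ hψ
    obtain ⟨φ, hφ, rfl⟩ := Finset.mem_image.1 hψ
    obtain ⟨hφS, x, hx, y, hy, hxy⟩ := Finset.mem_filter.1 hφ
    exact Finset.mem_biUnion.2 ⟨(x, y), Finset.mem_product.2 ⟨hx, hy⟩,
      Finset.mem_image_of_mem _ (Finset.mem_filter.2 ⟨hφS, hxy⟩)⟩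
  have h1 := (Finset.card_le_card hsub).trans Finset.card_biUnion_le
  have h3 : (((S.filter fun φ => ∃ x ∈ C, ∃ y ∈ C, φ x = φ₁ y).image (proj C)).card : ℝ) ≤
      ∑ d ∈ C ×ˢ C, (((S.filter fun φ => φ d.1 = φ₁ d.2).image (proj C)).card : ℝ) := by
    exact_mod_cast h1
  have h4 : ∑ d ∈ C ×ˢ C, (((S.filter fun φ => φ d.1 = φ₁ d.2).image (proj C)).card : ℝ) ≤
      ∑ _d ∈ C ×ˢ C, N := by
    refine Finset.sum_le_sum ?_
    intro d hd
    exact overlap_pair hG hs hV hb h2 hR1 hc hlev S hemb hag φ₁ (Finset.mem_product.1 hd).1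
  rw [Finset.sum_const, nsmul_eq_mul, Finset.card_product] at h4
  have h5 : ((C.card * C.card : ℕ) : ℝ) = (C.card : ℝ) ^ 2 := by
    push_cast
    ring
  rw [h5] at h4
  linarith

end Vale.Agent.Lib.P064T
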